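import Vale.Agent.P245.H468.ChS

/-! # P245 (helper468): the Gaussian reveal channel `W = √t φ(Y) + G`, `φ` with values in `ℝ^m`

Generalisation of the module `Rv` of `E1` to an arbitrary output dimension `m`. -/

open MeasureTheory Real Set Filter Topology
open scoped ENNReal ContDiff

namespace Vale.Agent.P245.H468

open LS E1

variable {n m : ℕ}

/-- weight of the output space `ℝ^m` -/
noncomputable def gw (m : ℕ) (w : Fin m → ℝ) : ℝ := 1 + ∑ i, |w i|

theorem out_gw (m : ℕ) : Out (gsn m) (gw m) := out_gsn m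

/-- the channel `W = √t φ(Y) + G` -/
noncomputable def RL (t : ℝ) (φ : Fin m → (Fin n → ℝ) → ℝ) (w : Fin m → ℝ) (y : Fin n → ℝ) : ℝ :=
  exp (√t * ∑ i, w i * φ i y - t / 2 * ∑ i, φ i y ^ 2)

/-- the field in vector form -/
def fv (φ : Fin m → (Fin n → ℝ) → ℝ) (y : Fin n → ℝ) (i : Fin m) : ℝ := φ i y

theorem RL_eq (t : ℝ) (φ : Fin m → (Fin n → ℝ) → ℝ) (z : Fin m → ℝ) (y : Fin n → ℝ) :
    RL t φ z y = lr t z (fv φ y) := rfl

theorem fv_bdd {φ : Fin m → (Fin n → ℝ) → ℝ} (hφ : ∀ i, SB (φ i)) :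
    ∃ B, 0 ≤ B ∧ ∀ y i, |fv φ y i| ≤ B := by
  have h : ∀ i, ∃ C, 0 ≤ C ∧ ∀ y, |φ i y| ≤ C := fun i => (hφ i).bdd'
  choose C hC0 hC using h
  exact ⟨∑ i, C i, Finset.sum_nonneg fun i _ => hC0 i, fun y i =>
    (hC i y).trans (Finset.single_le_sum (f := C) (fun j _ => hC0 j) (Finset.mem_univ i))⟩

section tr

variable {μ : Measure (Fin n → ℝ)} [IsProbabilityMeasure μ] {N : (Fin n → ℝ) → ℝ} {r t : ℝ}
  {φ : Fin m → (Fin n → ℝ) → ℝ}

theorem adR (hN : Pos N) (h1 : EY μ r N = 1) (hφ : ∀ i, SB (φ i)) :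
    LS.AD (lw μ r) N (fv φ) where
  Nm := hN.sb.measurable
  Vm i := (hφ i).measurable
  Nb := hN.sb.bdd
  Nl := hN.lb
  Vb := fv_bdd hφ
  N1 := by rw [← EY_eq_lw_sb μ r hN.sb]; exact h1

theorem RL_expo_sb (hφ : ∀ i, SB (φ i)) (t : ℝ) (z : Fin m → ℝ) :
    SB fun y => √t * ∑ i, z i * φ i y - t / 2 * ∑ i, φ i y ^ 2 :=
  (((SB.sum _ fun i _ => (hφ i).const_mul (z i))).const_mul _).sub
    ((SB.sum _ fun i _ => (hφ i).pow 2).const_mul _)

theorem RL_pos (hφ : ∀ i, SB (φ i)) (t : ℝ) (z : Fin m → ℝ) : Pos (RL t φ z) :=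
  (RL_expo_sb hφ t z).exp_pos

/-- the reveal channel is a channel -/
theorem ch_RL (hφ : ∀ i, SB (φ i)) {t : ℝ} (ht : 0 ≤ t) : Ch (gsn m) (gw m) (RL t φ) where
  meas := by
    have h1 : ∀ i, Measurable fun q : (Fin m → ℝ) × (Fin n → ℝ) => φ i q.2 := fun i =>
      (hφ i).measurable.comp measurable_snd
    have h2 : ∀ i, Measurable fun q : (Fin m → ℝ) × (Fin n → ℝ) => q.1 i := fun i =>
      (measurable_pi_apply i).comp measurable_fst
    unfold RL Function.uncurry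
    apply Measurable.exp
    exact ((Finset.measurable_sum _ fun i _ => (h2 i).mul (h1 i)).const_mul _).sub
      ((Finset.measurable_sum _ fun i _ => (h1 i).pow_const 2).const_mul _)
  bd := by
    obtain ⟨B, hB0, hB⟩ := fv_bdd hφ
    refine ⟨√t * B + t / 2 * (m * B ^ 2), by positivity, fun w y => ?_⟩
    have hS : 0 ≤ ∑ i, |w i| := Finset.sum_nonneg fun i _ => abs_nonneg _
    have h1 : |∑ i, w i * φ i y| ≤ B * ∑ i, |w i| := by
      refine (Finset.abs_sum_le_sum_abs _ _).trans ?_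
      rw [Finset.mul_sum]
      apply Finset.sum_le_sum; intro i _
      rw [abs_mul, mul_comm]
      exact mul_le_mul_of_nonneg_right (hB y i) (abs_nonneg _)
    have h2 : ∑ i, φ i y ^ 2 ≤ m * B ^ 2 := by
      calc ∑ i, φ i y ^ 2 ≤ ∑ _i : Fin m, B ^ 2 := by
            apply Finset.sum_le_sum; intro i _
            rw [← sq_abs]; exact pow_le_pow_left₀ (abs_nonneg _) (hB y i) 2
        _ = m * B ^ 2 := by simp only [Finset.sum_const, Finset.card_univ, Fintype.card_fin, nsmul_eq_mul]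
    have h2' : 0 ≤ ∑ i, φ i y ^ 2 := Finset.sum_nonneg fun i _ => sq_nonneg _
    have h3 := mul_le_mul_of_nonneg_left (abs_le.1 h1).1 (sqrt_nonneg t)
    have h3' := mul_le_mul_of_nonneg_left (abs_le.1 h1).2 (sqrt_nonneg t)
    have h4 := mul_le_mul_of_nonneg_left h2 (by (clear * - ht; positivity) : 0 ≤ t / 2)
    have h4' := mul_nonneg (by positivity : 0 ≤ t / 2) h2'
    have c1 : 0 ≤ √t * B := by (clear * - hB0; positivity)
    have c2 : 0 ≤ t / 2 * (m * B ^ 2) := by (clear * - ht; positivity)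
    have c3 := mul_nonneg c2 hS
    constructor
    · unfold RL gw
      apply exp_le_exp.2
      linarith only [c3, c1, h4, h3]
    · unfold RL gw
      apply exp_le_exp.2
      linarith only [c3, c2, c1, h4', h3']
  one y := integral_lr_one ht (fv φ y)

/-- the gradient of the log-likelihood -/
theorem pd_RL (hφ : ∀ i, SB (φ i)) (ht : 0 ≤ t) (z : Fin m → ℝ) (i : Fin n) (y : Fin n → ℝ) :
    pd (RL t φ z) i y = RL t φ z y * (√t * ∑ j, (z j - √t * φ j y) * pd (φ j) i y) := by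
  set E : (Fin n → ℝ) → ℝ := fun y => √t * ∑ i, z i * φ i y - t / 2 * ∑ i, φ i y ^ 2
    with hE
  have hEsb : SB E := RL_expo_sb hφ t z
  have hLR : RL t φ z = fun y => exp (E y) := rfl
  have hv : ∀ j, HasFDerivAt (φ j) (fderiv ℝ (φ j) y) y := fun j =>
    ((hφ j).differentiable y).hasFDerivAt
  have hpdE : pd E i y = √t * ∑ j, (z j - √t * φ j y) * pd (φ j) i y := by
    have h1 : HasFDerivAt E (√t • ∑ j, z j • fderiv ℝ (φ j) y
        - (t / 2) • ∑ j, (2 • φ j y ^ (2 - 1)) • fderiv ℝ (φ j) y) y := by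
      refine HasFDerivAt.sub ?_ ?_
      · exact (HasFDerivAt.fun_sum fun j _ => (hv j).const_mul (z j)).const_mul _
      · exact (HasFDerivAt.fun_sum fun j _ => (hv j).pow 2).const_mul _
    unfold pd
    rw [h1.fderiv]
    simp only [_root_.sub_apply, _root_.smul_apply, _root_.sum_apply, smul_eq_mul]
    rw [Finset.mul_sum, Finset.mul_sum, Finset.mul_sum, ← Finset.sum_sub_distrib]
    apply Finset.sum_congr rfl
    intro j _
    have h3 : √t * √t = t := mul_self_sqrt ht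
    norm_num
    linear_combination (φ j y * (fderiv ℝ (φ j) y) (Pi.single i 1)) * h3
  have e1 : pd (fun y => exp (E y)) i = fun y => exp (E y) * pd E i y :=
    LS.pd_comp (φ' := Real.exp) hEsb.differentiable (fun y => Real.hasDerivAt_exp _) i
  rw [hLR, e1, ← hpdE]

/-- the score of the channel -/
noncomputable def h0 (t : ℝ) (φ : Fin m → (Fin n → ℝ) → ℝ) (z : Fin m → ℝ) (i : Fin n)
    (y : Fin n → ℝ) : ℝ := √t * ∑ j, (z j - √t * φ j y) * pd (φ j) i y

theorem h0_sb (hφ : ∀ i, SB (φ i)) (t : ℝ) (z : Fin m → ℝ) (i : Fin n) : SB (h0 t φ z i) := by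
  refine SB.const_mul _ (SB.sum _ fun j _ => SB.mul ?_ ((hφ j).pd i))
  have h1 : SB fun _ : Fin n → ℝ => z j := fun k => SBk.const k _
  exact h1.sub ((hφ j).const_mul _)

theorem h0_meas (hφ : ∀ i, SB (φ i)) (t : ℝ) (i : Fin n) :
    Measurable (Function.uncurry fun (z : Fin m → ℝ) (y : Fin n → ℝ) => h0 t φ z i y) := by
  have h1 : ∀ j, Measurable fun q : (Fin m → ℝ) × (Fin n → ℝ) => φ j q.2 := fun j =>
    (hφ j).measurable.comp measurable_snd
  have h2 : ∀ j, Measurable fun q : (Fin m → ℝ) × (Fin n → ℝ) => q.1 j := fun j =>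
    (measurable_pi_apply j).comp measurable_fst
  have h3 : ∀ j, Measurable fun q : (Fin m → ℝ) × (Fin n → ℝ) => pd (φ j) i q.2 := fun j =>
    ((hφ j).pd i).measurable.comp measurable_snd
  unfold Function.uncurry h0
  exact (Finset.measurable_sum _ fun j _ =>
    ((h2 j).sub ((h1 j).const_mul _)).mul (h3 j)).const_mul _

/-- bound of the score of the channel -/
theorem h0_bd (hφ : ∀ i, SB (φ i)) (t : ℝ) : ∃ C, 0 ≤ C ∧ ∀ z i y, |h0 t φ z i y| ≤ C * gw m z := by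
  obtain ⟨B, hB0, hB⟩ := fv_bdd hφ
  have hWb : ∃ B', 0 ≤ B' ∧ ∀ (y : Fin n → ℝ) (j : Fin m) (i : Fin n), |pd (φ j) i y| ≤ B' := by
    have h : ∀ j i, ∃ C, 0 ≤ C ∧ ∀ y, |pd (φ j) i y| ≤ C := fun j i => ((hφ j).pd i).bdd'
    choose C hC0 hC using h
    refine ⟨∑ j, ∑ i, C j i, Finset.sum_nonneg fun j _ => Finset.sum_nonneg fun i _ => hC0 j i,
      fun y j i => (hC j i y).trans ?_⟩
    exact (Finset.single_le_sum (f := fun i => C j i) (fun i _ => hC0 j i)
      (Finset.mem_univ i)).trans (Finset.single_le_sum (f := fun j => ∑ i, C j i)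
      (fun j _ => Finset.sum_nonneg fun i _ => hC0 j i) (Finset.mem_univ j))
  obtain ⟨B', hB0', hB'⟩ := hWb
  have hst := sqrt_nonneg t
  refine ⟨√t * ((1 + m * (√t * B)) * B'), by positivity, fun z i y => ?_⟩
  unfold h0
  rw [abs_mul, abs_of_nonneg hst, mul_assoc, mul_assoc]
  apply mul_le_mul_of_nonneg_left _ hst
  have h1 : |∑ j, (z j - √t * φ j y) * pd (φ j) i y| ≤ ∑ j, (|z j| + √t * B) * B' := by
    refine (Finset.abs_sum_le_sum_abs _ _).trans (Finset.sum_le_sum fun j _ => ?_)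
    refine abs_mul_le_of ?_ (hB' y j i)
    refine (abs_sub _ _).trans (add_le_add le_rfl ?_)
    rw [abs_mul, abs_of_nonneg hst]
    exact mul_le_mul_of_nonneg_left (hB y j) hst
  refine h1.trans ?_
  rw [← Finset.sum_mul, Finset.sum_add_distrib]
  simp only [Finset.sum_const, Finset.card_univ, Fintype.card_fin, nsmul_eq_mul]
  have hS : 0 ≤ ∑ j, |z j| := Finset.sum_nonneg fun j _ => abs_nonneg _
  unfold gw
  have h2 : 0 ≤ (m : ℝ) * (√t * B) := by positivity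
  have h3 : (∑ j, |z j|) + m * (√t * B) ≤ (1 + m * (√t * B)) * (1 + ∑ j, |z j|) := by
    nlinarith [mul_nonneg h2 hS]
  calc ((∑ j, |z j|) + m * (√t * B)) * B'
      ≤ ((1 + m * (√t * B)) * (1 + ∑ j, |z j|)) * B' := mul_le_mul_of_nonneg_right h3 hB0'
    _ = _ := by ring

/-- the reveal channel is smooth -/
theorem sch_RL (hφ : ∀ i, SB (φ i)) {t : ℝ} (ht : 0 ≤ t) : SCh (gsn m) (gw m) (RL t φ) where
  ch := ch_RL hφ ht
  pos w := RL_pos hφ t w
  pdm i := by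
    have e : (Function.uncurry fun (w : Fin m → ℝ) (y : Fin n → ℝ) => pd (RL t φ w) i y)
        = fun q => Function.uncurry (RL t φ) q * Function.uncurry (fun z y => h0 t φ z i y) q := by
      funext q
      exact pd_RL hφ ht q.1 i q.2
    rw [e]
    exact (ch_RL hφ ht).meas.mul (h0_meas hφ t i)
  pdb := by
    obtain ⟨K, hK0, hK⟩ := (ch_RL hφ ht).bd
    obtain ⟨C, hC0, hC⟩ := h0_bd hφ t
    refine ⟨K + C, by positivity, fun w y i => ?_⟩
    rw [pd_RL hφ ht w i y, add_mul, exp_add]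
    refine abs_mul_le_of ?_ ?_
    · rw [abs_of_pos ((RL_pos hφ t w).pos y)]
      exact (hK w y).2
    · refine (hC w i y).trans ?_
      linarith [add_one_le_exp (C * gw m w)]

theorem ms_RL (hN : Pos N) (hφ : ∀ i, SB (φ i)) (z : Fin m → ℝ) :
    ms μ r N (RL t φ) z = pw (lw μ r) N (fv φ) t z := by
  unfold ms
  rw [EY_eq_lw_sb μ r (hN.mul (RL_pos hφ t z)).sb]
  rfl

theorem IP_eq_lw (hN : Pos N) (hφ : ∀ i, SB (φ i)) :
    IP μ r N φ φ = ∫ y, N y * ∑ i, fv φ y i ^ 2 ∂(lw μ r) := by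
  unfold IP
  rw [EY_eq_lw_sb μ r (hN.sb.mul (SB.sum _ fun i _ => (hφ i).mul (hφ i)))]
  congr 1
  funext y
  simp only [fv, sq]

theorem Inf_RL (hN : Pos N) (h1 : EY μ r N = 1) (hφ : ∀ i, SB (φ i)) (ht : 0 ≤ t) :
    Inf (gsn m) μ r N (RL t φ) = t / 2 * IP μ r N φ φ
      - ∫ z, pw (lw μ r) N (fv φ) t z * Real.log (pw (lw μ r) N (fv φ) t z) ∂(gsn m) := by
  have hA := adR (φ := φ) hN h1 hφ
  obtain ⟨e1, i1⟩ := avg_lrlog hA ht
  have i2 := hA.pw_int_log ht
  unfold Inf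
  simp_rw [ms_RL hN hφ]
  have e : ∀ z, (EY μ r fun y => N y * (RL t φ z y * Real.log (RL t φ z y)))
      = ∫ y, N y * (lr t z (fv φ y) * Real.log (lr t z (fv φ y))) ∂(lw μ r) := by
    intro z
    rw [EY_eq_lw_sb μ r (hN.sb.mul ((RL_pos hφ t z).sb.mul (RL_pos hφ t z).log))]
    rfl
  simp_rw [e]
  rw [integral_sub i1 i2, e1, IP_eq_lw hN hφ]

theorem Co_RL (hN : Pos N) (hφ : ∀ i, SB (φ i)) :
    Co (gsn m) μ r N φ (RL t φ)
      = ∫ z, (∑ i, xw (lw μ r) N (fv φ) t i z ^ 2) / pw (lw μ r) N (fv φ) t z ∂(gsn m) := by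
  unfold Co
  simp_rw [ms_RL hN hφ]
  have e : ∀ z i, (EY μ r fun y => N y * φ i y * RL t φ z y) = xw (lw μ r) N (fv φ) t i z := by
    intro z i
    rw [EY_eq_lw_sb μ r ((hN.sb.mul (hφ i)).mul (RL_pos hφ t z).sb)]
    unfold xw
    congr 1
    funext y
    rw [mul_assoc]
    rfl
  simp_rw [e]

/-- **upper bound of the information** -/
theorem Inf_RL_le (hN : Pos N) (h1 : EY μ r N = 1) (hφ : ∀ i, SB (φ i)) (ht : 0 ≤ t) :
    Inf (gsn m) μ r N (RL t φ) ≤ t / 2 * IP μ r N φ φ := by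
  rw [Inf_RL hN h1 hφ ht]
  have := (adR (φ := φ) hN h1 hφ).pw_log_nonneg ht
  linarith

/-- **lower bound of the information** (Gaussian log-Sobolev inequality) -/
theorem Inf_RL_ge (hN : Pos N) (h1 : EY μ r N = 1) (hφ : ∀ i, SB (φ i)) (ht : 0 ≤ t) :
    t / 2 * (IP μ r N φ φ - Co (gsn m) μ r N φ (RL t φ)) ≤ Inf (gsn m) μ r N (RL t φ) := by
  rw [Inf_RL hN h1 hφ ht, Co_RL hN hφ]
  have := (adR (φ := φ) hN h1 hφ).pw_lsi ht
  linarith

/-- second moments of the score of the channel, for a fixed state -/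
theorem h0_sq_int (hφ : ∀ i, SB (φ i)) (ht : 0 ≤ t) (y : Fin n → ℝ) :
    ∫ z, RL t φ z y * ∑ i, h0 t φ z i y ^ 2 ∂(gsn m) = t * ∑ i, ∑ j, pd (φ j) i y ^ 2 := by
  have e0 : (fun z => RL t φ z y * ∑ i, h0 t φ z i y ^ 2)
      = fun z => lr t z (fv φ y) * (∑ i, (√t * ∑ j, (z j - √t * fv φ y j) * pd (φ j) i y) ^ 2) :=
    rfl
  rw [e0, integral_lr ht (fv φ y)]
  have e : ∀ z : Fin m → ℝ, ∑ i, (√t * ∑ j, ((z j + √t * fv φ y j) - √t * fv φ y j)
      * pd (φ j) i y) ^ 2 = ∑ i, (0 + ∑ j, z j * (√t * pd (φ j) i y)) ^ 2 := by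
    intro z
    apply Finset.sum_congr rfl; intro i _
    congr 1
    rw [Finset.mul_sum, zero_add]
    apply Finset.sum_congr rfl; intro j _; ring
  simp_rw [e]
  have hi : ∀ i : Fin n, Integrable (fun z : Fin m → ℝ =>
      (0 + ∑ j, z j * (√t * pd (φ j) i y)) ^ 2) (gsn m) := by
    intro i
    have hl : EG1 fun z : Fin m → ℝ => 0 + ∑ j, z j * (√t * pd (φ j) i y) := by
      refine (EG1.const _).add (EG1.sum (n := m) Finset.univ
        (φ := fun j z => z j * (√t * pd (φ j) i y)) fun j _ => ?_)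
      have := (EG1.coord (n := m) j).const_mul (√t * pd (φ j) i y)
      simpa [mul_comm] using this
    have := (hl.mul hl).integrable (by (clear * -; exact Continuous.aestronglyMeasurable (by fun_prop)))
    simpa only [sq] using this
  rw [integral_finsetSum _ fun i _ => hi i]
  simp_rw [gauss_affine_sq]
  rw [Finset.mul_sum]
  apply Finset.sum_congr rfl; intro i _
  rw [Finset.mul_sum, zero_pow (by norm_num), zero_add]
  apply Finset.sum_congr rfl; intro j _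
  rw [mul_pow, sq_sqrt ht]

theorem JF_eq_h0 (hφ : ∀ i, SB (φ i)) (ht : 0 ≤ t) (z : Fin m → ℝ) (y : Fin n → ℝ) :
    (∑ i, pd (RL t φ z) i y ^ 2) / RL t φ z y = RL t φ z y * ∑ i, h0 t φ z i y ^ 2 := by
  have hp := ((RL_pos hφ t z).pos y).ne'
  have e : ∑ i, pd (RL t φ z) i y ^ 2 = RL t φ z y ^ 2 * ∑ i, h0 t φ z i y ^ 2 := by
    rw [Finset.mul_sum]
    refine Finset.sum_congr rfl fun i _ => ?_
    rw [pd_RL hφ ht z i y, mul_pow]
    rfl
  rw [e]
  field_simp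

/-- **the Fisher information of the reveal channel** -/
theorem JF_RL (hN : Pos N) (hφ : ∀ i, SB (φ i)) (ht : 0 ≤ t) :
    JF (gsn m) μ r N (RL t φ) = t * DE μ r N φ := by
  have hl := sch_RL (n := n) hφ ht
  obtain ⟨C, K, hb⟩ := JF_bd (out_gw m) hN hl
  unfold JF
  have e : (fun w => EY μ r (fun y => N y * ((∑ i, pd (RL t φ w) i y ^ 2) / RL t φ w y)))
      = fun w => ∫ y, N y * ((∑ i, pd (RL t φ w) i y ^ 2) / RL t φ w y) ∂(lw μ r) := by
    funext w
    exact EY_eq_lw_sb μ r (JF_sb hN hl w)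
  rw [e, swap_of_bd (P := lw μ r) (out_gw m) (JF_meas hN hl) hb]
  unfold DE
  rw [EY_eq_lw_sb μ r (sb_de hN hφ), ← integral_const_mul]
  congr 1
  funext y
  rw [integral_const_mul]
  simp_rw [JF_eq_h0 hφ ht]
  rw [h0_sq_int hφ ht, Finset.sum_comm]
  ring

/-- **the log-Sobolev inequality at the posteriors of the reveal channel** -/
theorem RL_lsi {κ D : ℝ} (hN : Pos N) (h1 : EY μ r N = 1) (hφ : ∀ i, SB (φ i)) (ht : 0 ≤ t)
    (hD : DBL μ r κ D) :
    HE μ r N + Inf (gsn m) μ r N (RL t φ) ≤ κ * (FI μ r N + t * DE μ r N φ) + D := by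
  have := ch_lsi (out_gw m) hN h1 (sch_RL (n := n) hφ ht) hD
  rwa [JF_RL hN hφ ht] at this

/-- the reveal inequality in the form used in the bootstrap -/
theorem reveal_ineq {δ κ D K x : ℝ} (hδ : 0 < δ) (hN : Pos N) (h1 : EY μ r N = 1)
    (hφ : ∀ i, SB (φ i)) (hD : DBL μ r κ D) (hK : Pred (gsn m) (gw m) μ r N φ x K)
    (hx : δ / 2 * IP μ r N φ φ ≤ x) :
    IP μ r N φ φ ≤ 2 * κ * DE μ r N φ + K + 2 * (D - LS.HE μ r N + κ * LS.FI μ r N) / δ := by
  have hch := ch_RL (n := n) hφ hδ.le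
  have hI1 := Inf_RL_le (μ := μ) (r := r) hN h1 hφ hδ.le
  have hI2 := Inf_RL_ge (μ := μ) (r := r) hN h1 hφ hδ.le
  have h3 := RL_lsi (μ := μ) (r := r) hN h1 hφ hδ.le hD
  have h2 := hK _ hch (hI1.trans hx)
  have h4 : δ / 2 * (IP μ r N φ φ - K)
      ≤ δ / 2 * (IP μ r N φ φ - Co (gsn m) μ r N φ (RL δ φ)) :=
    mul_le_mul_of_nonneg_left (by linarith only [h2]) (by positivity)
  have h6 : IP μ r N φ φ - K
      ≤ (D - LS.HE μ r N + κ * LS.FI μ r N + κ * δ * DE μ r N φ) / (δ / 2) := by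
    rw [le_div_iff₀ (by positivity)]
    linarith only [hI2, h3, h4]
  have e : (D - LS.HE μ r N + κ * LS.FI μ r N + κ * δ * DE μ r N φ) / (δ / 2)
      = 2 * κ * DE μ r N φ + 2 * (D - LS.HE μ r N + κ * LS.FI μ r N) / δ := by
    field_simp
    ring
  rw [e] at h6
  linarith only [h6]

end tr

/-! ### reindexing of fields -/

section reindex

variable {μ : Measure (Fin n → ℝ)} {N : (Fin n → ℝ) → ℝ} {r : ℝ}
  {W : Type*} [MeasurableSpace W] {γ : Measure W} {l : W → (Fin n → ℝ) → ℝ}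
  {ι ι' : Type*} [Fintype ι] [Fintype ι']

theorem IP_reindex (e : ι' ≃ ι) (φ ψ : ι → (Fin n → ℝ) → ℝ) :
    IP μ r N (fun k => φ (e k)) (fun k => ψ (e k)) = IP μ r N φ ψ := by
  unfold IP
  congr 1
  funext y
  rw [Equiv.sum_comp e (fun i => φ i y * ψ i y)]

theorem DE_reindex (e : ι' ≃ ι) (φ : ι → (Fin n → ℝ) → ℝ) :
    DE μ r N (fun k => φ (e k)) = DE μ r N φ := by
  unfold DE
  congr 1
  funext y
  rw [Equiv.sum_comp e (fun i => ∑ j, pd (φ i) j y ^ 2)]

theorem Co_reindex (e : ι' ≃ ι) (φ : ι → (Fin n → ℝ) → ℝ) :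
    Co γ μ r N (fun k => φ (e k)) l = Co γ μ r N φ l := by
  unfold Co
  congr 1
  funext w
  rw [Equiv.sum_comp e (fun i => (EY μ r fun y => N y * φ i y * l w y) ^ 2)]

end reindex

end Vale.Agent.P245.H468
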