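import Vale.Agent.P245.Bdl.B1

/-! # P245 (helper468): channels with an arbitrary output space

Generalisation of the module `Co` of `E1` (`Bdl/B1.lean`): the output space of the channel is any
probability space `(W, γ)` with a weight `g ≥ 1` all of whose exponential moments are finite, and
the fields have an arbitrary finite index set. -/

open MeasureTheory Real Set Filter Topology
open scoped ENNReal ContDiff

namespace Vale.Agent.P245.H468

open LS E1

variable {n : ℕ} {W : Type*} [MeasurableSpace W] {γ : Measure W} {g : W → ℝ}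

/-- output space of a channel -/
structure Out (γ : Measure W) (g : W → ℝ) : Prop where
  meas : Measurable g
  one_le : ∀ w, 1 ≤ g w
  int : ∀ K : ℝ, Integrable (fun w => exp (K * g w)) γ

/-- channels with output space `(W, γ)`: likelihood `l w y` -/
structure Ch (γ : Measure W) (g : W → ℝ) (l : W → (Fin n → ℝ) → ℝ) : Prop where
  meas : Measurable (Function.uncurry l)
  bd : ∃ K, 0 ≤ K ∧ ∀ w y, exp (-(K * g w)) ≤ l w y ∧ l w y ≤ exp (K * g w)
  one : ∀ y, ∫ w, l w y ∂γ = 1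

/-- mass of the output `w` when `Y ∼ N p_r` -/
noncomputable def ms (μ : Measure (Fin n → ℝ)) (r : ℝ) (N : (Fin n → ℝ) → ℝ)
    (l : W → (Fin n → ℝ) → ℝ) (w : W) : ℝ := EY μ r fun y => N y * l w y

/-- integrand of the mutual information -/
noncomputable def infI (μ : Measure (Fin n → ℝ)) (r : ℝ) (N : (Fin n → ℝ) → ℝ)
    (l : W → (Fin n → ℝ) → ℝ) (w : W) : ℝ :=
  (EY μ r fun y => N y * (l w y * log (l w y))) - ms μ r N l w * log (ms μ r N l w)

/-- mutual information -/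
noncomputable def Inf (γ : Measure W) (μ : Measure (Fin n → ℝ)) (r : ℝ) (N : (Fin n → ℝ) → ℝ)
    (l : W → (Fin n → ℝ) → ℝ) : ℝ :=
  ∫ w, ((EY μ r fun y => N y * (l w y * log (l w y))) - ms μ r N l w * log (ms μ r N l w)) ∂γ

/-- second moment of the posterior mean of `φ(Y)` -/
noncomputable def Co {ι : Type*} [Fintype ι] (γ : Measure W) (μ : Measure (Fin n → ℝ)) (r : ℝ)
    (N : (Fin n → ℝ) → ℝ) (φ : ι → (Fin n → ℝ) → ℝ) (l : W → (Fin n → ℝ) → ℝ) : ℝ :=
  ∫ w, (∑ i, (EY μ r fun y => N y * φ i y * l w y) ^ 2) / ms μ r N l w ∂γ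

/-- all channels with information `≤ x` predict `φ` with second moment `≤ X` -/
def Pred {ι : Type*} [Fintype ι] (γ : Measure W) (g : W → ℝ) (μ : Measure (Fin n → ℝ)) (r : ℝ)
    (N : (Fin n → ℝ) → ℝ) (φ : ι → (Fin n → ℝ) → ℝ) (x X : ℝ) : Prop :=
  ∀ l, Ch γ g l → Inf γ μ r N l ≤ x → Co γ μ r N φ l ≤ X

/-- `E_q ⟨φ, ψ⟩`, `q = N p_r`, arbitrary finite index set -/
noncomputable def IP {ι : Type*} [Fintype ι] (μ : Measure (Fin n → ℝ)) (r : ℝ)
    (N : (Fin n → ℝ) → ℝ) (φ ψ : ι → (Fin n → ℝ) → ℝ) : ℝ :=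
  EY μ r fun y => N y * ∑ i, φ i y * ψ i y

/-- `E_q |Dφ|²`, arbitrary finite index set -/
noncomputable def DE {ι : Type*} [Fintype ι] (μ : Measure (Fin n → ℝ)) (r : ℝ)
    (N : (Fin n → ℝ) → ℝ) (φ : ι → (Fin n → ℝ) → ℝ) : ℝ :=
  EY μ r fun y => N y * ∑ i, ∑ j, pd (φ i) j y ^ 2

/-! ### the standard output spaces -/

theorem out_gsn (m : ℕ) : Out (gsn m) fun w : Fin m → ℝ => 1 + ∑ i, |w i| where
  meas := by fun_prop
  one_le w := by
    have : 0 ≤ ∑ i, |w i| := Finset.sum_nonneg fun i _ => abs_nonneg _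
    linarith
  int K := E1.integrable_expo K

/-- the channels of `E1` -/
theorem Ch.of_e1 {l : (Fin n → ℝ) → (Fin n → ℝ) → ℝ} (h : E1.Ch l) :
    Ch (gsn n) (fun w : Fin n → ℝ => 1 + ∑ i, |w i|) l := ⟨h.meas, h.bd, h.one⟩

theorem Ch.to_e1 {l : (Fin n → ℝ) → (Fin n → ℝ) → ℝ}
    (h : Ch (gsn n) (fun w : Fin n → ℝ => 1 + ∑ i, |w i|) l) : E1.Ch l := ⟨h.meas, h.bd, h.one⟩

/-- product of two output spaces -/
theorem Out.prod {W' : Type*} [MeasurableSpace W'] {γ' : Measure W'} {g' : W' → ℝ}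
    [SFinite γ] [SFinite γ'] (h : Out γ g) (h' : Out γ' g') :
    Out (γ.prod γ') fun w => g w.1 + g' w.2 where
  meas := (h.meas.comp measurable_fst).add (h'.meas.comp measurable_snd)
  one_le w := by linarith [h.one_le w.1, h'.one_le w.2]
  int K := by
    have := (h.int K).mul_prod (h'.int K)
    refine this.congr (Eventually.of_forall fun w => ?_)
    show exp (K * g w.1) * exp (K * g' w.2) = exp (K * (g w.1 + g' w.2))
    rw [← exp_add]
    congr 1
    ring

theorem Out.pos (hg : Out γ g) (w : W) : 0 < g w := lt_of_lt_of_le one_pos (hg.one_le w)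

/-! ### channels -/

section chan

variable {l : W → (Fin n → ℝ) → ℝ}

theorem Ch.meas_left (hl : Ch γ g l) (w : W) : Measurable (l w) :=
  hl.meas.comp (measurable_const.prodMk measurable_id)

theorem Ch.pos (hl : Ch γ g l) (w : W) (y : Fin n → ℝ) : 0 < l w y := by
  obtain ⟨K, _, hK⟩ := hl.bd
  exact (exp_pos _).trans_le (hK w y).1

theorem Ch.bdd_left (hl : Ch γ g l) (w : W) : ∃ C, ∀ y, |l w y| ≤ C := by
  obtain ⟨K, _, hK⟩ := hl.bd
  exact ⟨_, fun y => by rw [abs_of_pos (hl.pos w y)]; exact (hK w y).2⟩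

theorem Ch.log_left (hg : Out γ g) (hl : Ch γ g l) : ∃ K, 0 ≤ K ∧ ∀ w y, |log (l w y)| ≤ K * g w := by
  obtain ⟨K, hK0, hK⟩ := hl.bd
  refine ⟨K, hK0, fun w y => ?_⟩
  have hp := hl.pos w y
  rw [abs_le]
  constructor
  · have := log_le_log (exp_pos _) (hK w y).1
    rwa [log_exp] at this
  · have := log_le_log hp (hK w y).2
    rwa [log_exp] at this

variable {P : Measure (Fin n → ℝ)} [IsProbabilityMeasure P]

theorem Ch.meas_int (hl : Ch γ g l) {Ψ : (Fin n → ℝ) → ℝ} (hΨ : Measurable Ψ) :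
    Measurable fun w => ∫ y, Ψ y * l w y ∂P := by
  have h : Measurable (Function.uncurry fun (w : W) (y : Fin n → ℝ) => Ψ y * l w y) :=
    (hΨ.comp measurable_snd).mul hl.meas
  exact h.stronglyMeasurable.integral_prod_right'.measurable

theorem Ch.int_left (hl : Ch γ g l) {Ψ : (Fin n → ℝ) → ℝ} (hΨ : Measurable Ψ) {C : ℝ}
    (hC : ∀ y, |Ψ y| ≤ C) (w : W) : Integrable (fun y => Ψ y * l w y) P := by
  obtain ⟨D, hD⟩ := hl.bdd_left w
  exact Integrable.of_bound (hΨ.mul (hl.meas_left w)).aestronglyMeasurable (C * D)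
    (Eventually.of_forall fun y => by rw [norm_eq_abs]; exact abs_mul_le_of (hC y) (hD y))

variable [IsProbabilityMeasure γ]

theorem Ch.int_prod (hg : Out γ g) (hl : Ch γ g l) {Ψ : (Fin n → ℝ) → ℝ} (hΨ : Measurable Ψ)
    {C : ℝ} (hC : ∀ y, |Ψ y| ≤ C) :
    Integrable (Function.uncurry fun (w : W) (y : Fin n → ℝ) => Ψ y * l w y) (γ.prod P) := by
  obtain ⟨K, _, hK⟩ := hl.bd
  have h : Measurable (Function.uncurry fun (w : W) (y : Fin n → ℝ) => Ψ y * l w y) :=
    (hΨ.comp measurable_snd).mul hl.meas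
  have h2 : Integrable (fun q : W × (Fin n → ℝ) => C * exp (K * g q.1)) (γ.prod P) :=
    ((hg.int K).comp_fst P).const_mul C
  refine h2.mono' h.aestronglyMeasurable (Eventually.of_forall fun q => ?_)
  rw [norm_eq_abs]
  have h3 : |l q.1 q.2| ≤ exp (K * g q.1) := by
    rw [abs_of_pos (hl.pos _ _)]; exact (hK _ _).2
  exact abs_mul_le_of (hC q.2) h3

theorem Ch.int_out (hg : Out γ g) (hl : Ch γ g l) {Ψ : (Fin n → ℝ) → ℝ} (hΨ : Measurable Ψ)
    {C : ℝ} (hC : ∀ y, |Ψ y| ≤ C) : Integrable (fun w => ∫ y, Ψ y * l w y ∂P) γ :=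
  (hl.int_prod (P := P) hg hΨ hC).integral_prod_left

/-- Fubini -/
theorem Ch.fubini (hg : Out γ g) (hl : Ch γ g l) {Ψ : (Fin n → ℝ) → ℝ} (hΨ : Measurable Ψ)
    {C : ℝ} (hC : ∀ y, |Ψ y| ≤ C) : ∫ w, ∫ y, Ψ y * l w y ∂P ∂γ = ∫ y, Ψ y ∂P := by
  rw [integral_integral_swap (hl.int_prod (P := P) hg hΨ hC)]
  congr 1
  funext y
  rw [integral_const_mul, hl.one y, mul_one]

end chan

/-! ### quadratic functionals -/

section ip

variable {μ : Measure (Fin n → ℝ)} [IsProbabilityMeasure μ] {r : ℝ} {N : (Fin n → ℝ) → ℝ}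
  {ι : Type*} [Fintype ι] {φ ψ : ι → (Fin n → ℝ) → ℝ}

theorem sb_ip (hN : Pos N) (hφ : ∀ i, SB (φ i)) (hψ : ∀ i, SB (ψ i)) :
    SB fun y => N y * ∑ i, φ i y * ψ i y :=
  hN.sb.mul (SB.sum _ fun i _ => (hφ i).mul (hψ i))

theorem sb_de (hN : Pos N) (hφ : ∀ i, SB (φ i)) :
    SB fun y => N y * ∑ i, ∑ j, pd (φ i) j y ^ 2 :=
  hN.sb.mul (SB.sum _ fun i _ => SB.sum _ fun j _ => ((hφ i).pd j).pow 2)

omit [IsProbabilityMeasure μ] in
theorem IP_self_nonneg (hN : Pos N) : 0 ≤ IP μ r N φ φ :=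
  EY_nonneg μ r fun y => mul_nonneg (hN.pos y).le
    (Finset.sum_nonneg fun _ _ => mul_self_nonneg _)

omit [IsProbabilityMeasure μ] in
theorem DE_nonneg (hN : Pos N) : 0 ≤ DE μ r N φ :=
  EY_nonneg μ r fun y => mul_nonneg (hN.pos y).le
    (Finset.sum_nonneg fun _ _ => Finset.sum_nonneg fun _ _ => sq_nonneg _)

omit [IsProbabilityMeasure μ] in
theorem IP_comm : IP μ r N φ ψ = IP μ r N ψ φ := by
  unfold IP
  congr 1
  funext y
  congr 1
  exact Finset.sum_congr rfl fun i _ => mul_comm _ _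

theorem IP_quad (hN : Pos N) (hφ : ∀ i, SB (φ i)) (hψ : ∀ i, SB (ψ i)) (a b : ℝ) :
    IP μ r N (fun i y => a * φ i y + b * ψ i y) (fun i y => a * φ i y + b * ψ i y)
      = a ^ 2 * IP μ r N φ φ + 2 * a * b * IP μ r N φ ψ + b ^ 2 * IP μ r N ψ ψ := by
  have h1 := sb_ip hN hφ hφ
  have h2 := sb_ip hN hφ hψ
  have h3 := sb_ip hN hψ hψ
  unfold IP
  rw [← EY_const_mul, ← EY_const_mul, ← EY_const_mul,
    ← EY_add μ r (h1.const_mul _) (h2.const_mul _),
    ← EY_add μ r ((h1.const_mul _).add (h2.const_mul _)) (h3.const_mul _)]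
  congr 1
  funext y
  have e : ∑ i, (a * φ i y + b * ψ i y) * (a * φ i y + b * ψ i y)
      = a ^ 2 * ∑ i, φ i y * φ i y + 2 * a * b * ∑ i, φ i y * ψ i y
        + b ^ 2 * ∑ i, ψ i y * ψ i y := by
    simp only [Finset.mul_sum]
    rw [← Finset.sum_add_distrib, ← Finset.sum_add_distrib]
    exact Finset.sum_congr rfl fun i _ => by ring
  rw [e]
  ring

theorem IP_cs (hN : Pos N) (hφ : ∀ i, SB (φ i)) (hψ : ∀ i, SB (ψ i)) :
    IP μ r N φ ψ ^ 2 ≤ IP μ r N φ φ * IP μ r N ψ ψ := by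
  have hA : 0 ≤ IP μ r N φ φ := IP_self_nonneg hN
  have hC : 0 ≤ IP μ r N ψ ψ := IP_self_nonneg hN
  have hq : ∀ a b : ℝ, 0 ≤ a ^ 2 * IP μ r N φ φ + 2 * a * b * IP μ r N φ ψ
      + b ^ 2 * IP μ r N ψ ψ := fun a b => by
    rw [← IP_quad hN hφ hψ a b]; exact IP_self_nonneg hN
  rcases hC.eq_or_lt with h0 | h0
  · rw [← h0, mul_zero]
    by_contra hB
    push Not at hB
    have hB0 : IP μ r N φ ψ ≠ 0 := by
      intro h
      rw [h] at hB
      norm_num at hB
    have h1 := hq 1 (-(IP μ r N φ φ + 1) / (2 * IP μ r N φ ψ))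
    rw [← h0, mul_zero, add_zero] at h1
    have e : 1 ^ 2 * IP μ r N φ φ + 2 * 1 * (-(IP μ r N φ φ + 1) / (2 * IP μ r N φ ψ))
      * IP μ r N φ ψ = -1 := by
      field_simp
      ring
    rw [e] at h1
    linarith only [h1]
  · have h1 := hq (IP μ r N ψ ψ) (-IP μ r N φ ψ)
    have h2 : 0 ≤ IP μ r N ψ ψ * (IP μ r N φ φ * IP μ r N ψ ψ - IP μ r N φ ψ ^ 2) := by
      linarith
    have h3 := nonneg_of_mul_nonneg_right h2 h0
    linarith

end ip

section co

variable {μ : Measure (Fin n → ℝ)} [IsProbabilityMeasure μ] {r : ℝ} {N : (Fin n → ℝ) → ℝ}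
  {ι : Type*} [Fintype ι] {φ ψ : ι → (Fin n → ℝ) → ℝ} {l : W → (Fin n → ℝ) → ℝ}

theorem EY_ch (hl : Ch γ g l) {Ψ : (Fin n → ℝ) → ℝ} (hΨ : SB Ψ) (w : W) :
    (EY μ r fun y => Ψ y * l w y) = ∫ y, Ψ y * l w y ∂(lw μ r) := by
  obtain ⟨C, hC⟩ := hΨ.bdd
  obtain ⟨D, hD⟩ := hl.bdd_left w
  exact EY_eq_lw μ r (hΨ.measurable.mul (hl.meas_left w)) fun y => abs_mul_le_of (hC y) (hD y)

theorem ms_eq (hN : Pos N) (hl : Ch γ g l) (w : W) :
    ms μ r N l w = ∫ y, N y * l w y ∂(lw μ r) := EY_ch hl hN.sb w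

theorem ms_pos (hN : Pos N) (hl : Ch γ g l) (w : W) : 0 < ms μ r N l w := by
  rw [ms_eq hN hl w]
  obtain ⟨ε, hε, hNε⟩ := hN.lb
  obtain ⟨K, _, hK⟩ := hl.bd
  obtain ⟨C, hC⟩ := hN.sb.bdd
  have h1 : ∫ _y, ε * exp (-(K * g w)) ∂(lw μ r) ≤ ∫ y, N y * l w y ∂(lw μ r) := by
    apply integral_mono (integrable_const _) (hl.int_left hN.sb.measurable hC w)
    intro y
    exact mul_le_mul (hNε y) (hK w y).1 (exp_pos _).le (hε.le.trans (hNε y))
  rw [integral_const] at h1
  simp only [probReal_univ, smul_eq_mul, one_mul] at h1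
  exact (mul_pos hε (exp_pos _)).trans_le h1

theorem ms_measurable (hN : Pos N) (hl : Ch γ g l) : Measurable (ms μ r N l) := by
  have e : ms μ r N l = fun w => ∫ y, N y * l w y ∂(lw μ r) := by
    funext w; exact ms_eq hN hl w
  rw [e]; exact hl.meas_int hN.sb.measurable

/-- Cauchy-Schwarz for the posterior mean -/
theorem post_cs (hN : Pos N) {h : (Fin n → ℝ) → ℝ} (hh : SB h) (hl : Ch γ g l) (w : W) :
    (EY μ r fun y => N y * h y * l w y) ^ 2 / ms μ r N l w
      ≤ EY μ r fun y => (N y * (h y * h y)) * l w y := by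
  have hm := ms_pos (μ := μ) (r := r) hN hl w
  have e1 : (EY μ r fun y => N y * h y * l w y) = ∫ y, N y * h y * l w y ∂(lw μ r) :=
    EY_ch hl (hN.sb.mul hh) w
  have e2 : (EY μ r fun y => (N y * (h y * h y)) * l w y)
      = ∫ y, (N y * (h y * h y)) * l w y ∂(lw μ r) := EY_ch hl (hN.sb.mul (hh.mul hh)) w
  have e3 := ms_eq (μ := μ) (r := r) hN hl w
  rw [e1, e2]
  set m := ms μ r N l w with hmdef
  set a := ∫ y, N y * h y * l w y ∂(lw μ r) with ha
  obtain ⟨C1, hC1⟩ := (hN.sb.mul hh).bdd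
  obtain ⟨C2, hC2⟩ := (hN.sb.mul (hh.mul hh)).bdd
  obtain ⟨C3, hC3⟩ := hN.sb.bdd
  have i1 := hl.int_left (P := lw μ r) (hN.sb.mul hh).measurable hC1 w
  have i2 := hl.int_left (P := lw μ r) (hN.sb.mul (hh.mul hh)).measurable hC2 w
  have i3 := hl.int_left (P := lw μ r) hN.sb.measurable hC3 w
  have h0 : 0 ≤ ∫ y, ((N y * (h y * h y)) * l w y - 2 * (a / m) * (N y * h y * l w y)
      + (a / m) ^ 2 * (N y * l w y)) ∂(lw μ r) := by
    apply integral_nonneg
    intro y
    have e : (N y * (h y * h y)) * l w y - 2 * (a / m) * (N y * h y * l w y)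
      + (a / m) ^ 2 * (N y * l w y) = N y * l w y * (h y - a / m) ^ 2 := by ring
    show 0 ≤ (N y * (h y * h y)) * l w y - 2 * (a / m) * (N y * h y * l w y)
      + (a / m) ^ 2 * (N y * l w y)
    rw [e]
    exact mul_nonneg (mul_nonneg (hN.pos y).le (hl.pos w y).le) (sq_nonneg _)
  have i4 : Integrable (fun y => (N y * (h y * h y)) * l w y - 2 * (a / m) * (N y * h y * l w y))
      (lw μ r) := i2.sub (i1.const_mul _)
  rw [integral_add i4 (i3.const_mul _), integral_sub i2 (i1.const_mul _),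
    integral_const_mul, integral_const_mul, ← e3] at h0
  have e4 : (a / m) ^ 2 * m = a ^ 2 / m := by field_simp
  have e5 : 2 * (a / m) * a = 2 * (a ^ 2 / m) := by ring
  rw [← ha, e4, e5] at h0
  linarith only [h0]

theorem Co_integrand_le (hN : Pos N) (hφ : ∀ i, SB (φ i)) (hl : Ch γ g l) (w : W) :
    (∑ i, (EY μ r fun y => N y * φ i y * l w y) ^ 2) / ms μ r N l w
      ≤ ∫ y, (N y * ∑ i, φ i y * φ i y) * l w y ∂(lw μ r) := by
  rw [Finset.sum_div]
  have h1 : ∑ i, (EY μ r fun y => N y * φ i y * l w y) ^ 2 / ms μ r N l w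
      ≤ ∑ i, ∫ y, (N y * (φ i y * φ i y)) * l w y ∂(lw μ r) := by
    apply Finset.sum_le_sum
    intro i _
    have := post_cs (μ := μ) (r := r) hN (hφ i) hl w
    rwa [EY_ch hl (hN.sb.mul ((hφ i).mul (hφ i))) w] at this
  refine h1.trans (le_of_eq ?_)
  rw [← integral_finsetSum]
  · congr 1
    funext y
    rw [Finset.mul_sum, Finset.sum_mul]
  · intro i _
    obtain ⟨C, hC⟩ := (hN.sb.mul ((hφ i).mul (hφ i))).bdd
    exact hl.int_left (hN.sb.mul ((hφ i).mul (hφ i))).measurable hC w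

theorem Co_integrand_nonneg (hN : Pos N) (hl : Ch γ g l) (w : W) :
    0 ≤ (∑ i, (EY μ r fun y => N y * φ i y * l w y) ^ 2) / ms μ r N l w :=
  div_nonneg (Finset.sum_nonneg fun _ _ => sq_nonneg _) (ms_pos hN hl w).le

theorem Co_integrand_meas (hN : Pos N) (hφ : ∀ i, SB (φ i)) (hl : Ch γ g l) :
    Measurable fun w => (∑ i, (EY μ r fun y => N y * φ i y * l w y) ^ 2) / ms μ r N l w := by
  apply Measurable.div _ (ms_measurable hN hl)
  apply Finset.measurable_sum
  intro i _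
  apply Measurable.pow_const
  have e : (fun w => EY μ r fun y => N y * φ i y * l w y)
      = fun w => ∫ y, N y * φ i y * l w y ∂(lw μ r) := by
    funext w; exact EY_ch hl (hN.sb.mul (hφ i)) w
  rw [e]
  exact hl.meas_int (hN.sb.mul (hφ i)).measurable

theorem sb_ip_bdd (hN : Pos N) (hφ : ∀ i, SB (φ i)) :
    ∃ C, ∀ y, |N y * ∑ i, φ i y * φ i y| ≤ C := (sb_ip hN hφ hφ).bdd

theorem Co_nonneg (hN : Pos N) (hl : Ch γ g l) : 0 ≤ Co γ μ r N φ l :=
  integral_nonneg fun w => Co_integrand_nonneg hN hl w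

/-- integrand of `Inf` is nonnegative -/
theorem infI_nonneg (hN : Pos N) (h1 : EY μ r N = 1) (hl : Ch γ g l) (hg : Out γ g) (w : W) :
    0 ≤ (EY μ r fun y => N y * (l w y * log (l w y))) - ms μ r N l w * log (ms μ r N l w) := by
  have hm := ms_pos (μ := μ) (r := r) hN hl w
  have e3 := ms_eq (μ := μ) (r := r) hN hl w
  set m := ms μ r N l w with hmdef
  obtain ⟨K, hK0, hK⟩ := hl.bd
  obtain ⟨C3, hC3⟩ := hN.sb.bdd
  have hS : 0 ≤ g w := (hg.pos w).le
  have hlm := hl.meas_left w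
  have hllm : Measurable fun y => l w y * log (l w y) := hlm.mul hlm.log
  have hllb : ∀ y, |l w y * log (l w y)| ≤ exp (K * g w) * (K * g w) := by
    intro y
    have hp := hl.pos w y
    apply abs_mul_le_of
    · rw [abs_of_pos hp]; exact (hK w y).2
    · rw [abs_le]
      constructor
      · have := log_le_log (exp_pos _) (hK w y).1
        rwa [log_exp] at this
      · have := log_le_log hp (hK w y).2
        rwa [log_exp] at this
  have hb2 : ∀ y, |N y * (l w y * log (l w y))| ≤ C3 * (exp (K * g w) * (K * g w)) :=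
    fun y => abs_mul_le_of (hC3 y) (hllb y)
  have hm2 : Measurable fun y => N y * (l w y * log (l w y)) := hN.sb.measurable.mul hllm
  rw [EY_eq_lw μ r hm2 hb2]
  have i0 : Integrable N (lw μ r) := hN.sb.integrable _
  have i1 : Integrable (fun y => N y * l w y) (lw μ r) :=
    hl.int_left (P := lw μ r) hN.sb.measurable hC3 w
  have i2 : Integrable (fun y => N y * (l w y * log (l w y))) (lw μ r) :=
    Integrable.of_bound hm2.aestronglyMeasurable _
      (Eventually.of_forall fun y => by rw [norm_eq_abs]; exact hb2 y)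
  have i3 : Integrable (fun y => (m * log m - (1 + log m) * m) * N y
      + (1 + log m) * (N y * l w y)) (lw μ r) := (i0.const_mul _).add (i1.const_mul _)
  have h2 : ∫ y, ((m * log m - (1 + log m) * m) * N y + (1 + log m) * (N y * l w y)) ∂(lw μ r)
      ≤ ∫ y, N y * (l w y * log (l w y)) ∂(lw μ r) := by
    apply integral_mono i3 i2
    intro y
    have h3 := mul_le_mul_of_nonneg_left (xlogx_tangent (hl.pos w y) hm) (hN.pos y).le
    show (m * log m - (1 + log m) * m) * N y + (1 + log m) * (N y * l w y)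
      ≤ N y * (l w y * log (l w y))
    linarith only [h3]
  rw [integral_add (i0.const_mul _) (i1.const_mul _), integral_const_mul, integral_const_mul,
    ← e3, ← EY_eq_lw_sb μ r hN.sb, h1] at h2
  linarith only [h2]

theorem Inf_nonneg (hg : Out γ g) (hN : Pos N) (h1 : EY μ r N = 1) (hl : Ch γ g l) :
    0 ≤ Inf γ μ r N l :=
  integral_nonneg fun w => infI_nonneg hN h1 hl hg w

variable [IsProbabilityMeasure γ]

theorem Co_integrable (hg : Out γ g) (hN : Pos N) (hφ : ∀ i, SB (φ i)) (hl : Ch γ g l) :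
    Integrable (fun w => (∑ i, (EY μ r fun y => N y * φ i y * l w y) ^ 2) / ms μ r N l w) γ := by
  obtain ⟨C, hC⟩ := sb_ip_bdd hN hφ
  have h := hl.int_out (P := lw μ r) hg (sb_ip hN hφ hφ).measurable hC
  refine h.mono' (Co_integrand_meas hN hφ hl).aestronglyMeasurable
    (Eventually.of_forall fun w => ?_)
  rw [norm_eq_abs, abs_of_nonneg (Co_integrand_nonneg hN hl w)]
  exact Co_integrand_le hN hφ hl w

theorem Co_le (hg : Out γ g) (hN : Pos N) (hφ : ∀ i, SB (φ i)) (hl : Ch γ g l) :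
    Co γ μ r N φ l ≤ IP μ r N φ φ := by
  obtain ⟨C, hC⟩ := sb_ip_bdd hN hφ
  have h := hl.int_out (P := lw μ r) hg (sb_ip hN hφ hφ).measurable hC
  unfold Co IP
  refine (integral_mono (Co_integrable hg hN hφ hl) h fun w => Co_integrand_le hN hφ hl w).trans
    (le_of_eq ?_)
  rw [hl.fubini (P := lw μ r) hg (sb_ip hN hφ hφ).measurable hC, EY_eq_lw_sb μ r (sb_ip hN hφ hφ)]

theorem Co_comb (hg : Out γ g) (hN : Pos N) (hφ : ∀ i, SB (φ i)) (hψ : ∀ i, SB (ψ i))
    (hl : Ch γ g l) (a b : ℝ) :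
    Co γ μ r N (fun i y => a * φ i y + b * ψ i y) l
      ≤ 2 * a ^ 2 * Co γ μ r N φ l + 2 * b ^ 2 * Co γ μ r N ψ l := by
  have hc : ∀ i, SB fun y => a * φ i y + b * ψ i y := fun i =>
    ((hφ i).const_mul a).add ((hψ i).const_mul b)
  have i1 := Co_integrable (μ := μ) (r := r) hg hN hφ hl
  have i2 := Co_integrable (μ := μ) (r := r) hg hN hψ hl
  have i3 := Co_integrable (μ := μ) (r := r) hg hN hc hl
  unfold Co
  rw [← integral_const_mul, ← integral_const_mul,
    ← integral_add (i1.const_mul _) (i2.const_mul _)]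
  apply integral_mono i3 ((i1.const_mul _).add (i2.const_mul _))
  intro w
  have hm := ms_pos (μ := μ) (r := r) hN hl w
  have key : ∀ i, (EY μ r fun y => N y * (a * φ i y + b * ψ i y) * l w y)
      = a * (EY μ r fun y => N y * φ i y * l w y)
        + b * (EY μ r fun y => N y * ψ i y * l w y) := by
    intro i
    rw [EY_ch hl (hN.sb.mul (hc i)) w, EY_ch hl (hN.sb.mul (hφ i)) w,
      EY_ch hl (hN.sb.mul (hψ i)) w, ← integral_const_mul, ← integral_const_mul, ← integral_add]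
    · congr 1
      funext y
      ring
    · obtain ⟨C, hC⟩ := (hN.sb.mul (hφ i)).bdd
      exact (hl.int_left (hN.sb.mul (hφ i)).measurable hC w).const_mul a
    · obtain ⟨C, hC⟩ := (hN.sb.mul (hψ i)).bdd
      exact (hl.int_left (hN.sb.mul (hψ i)).measurable hC w).const_mul b
  show (∑ i, (EY μ r fun y => N y * (a * φ i y + b * ψ i y) * l w y) ^ 2) / ms μ r N l w
    ≤ 2 * a ^ 2 * ((∑ i, (EY μ r fun y => N y * φ i y * l w y) ^ 2) / ms μ r N l w)
      + 2 * b ^ 2 * ((∑ i, (EY μ r fun y => N y * ψ i y * l w y) ^ 2) / ms μ r N l w)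
  rw [← mul_div_assoc, ← mul_div_assoc, ← add_div]
  apply div_le_div_of_nonneg_right _ hm.le
  rw [Finset.mul_sum, Finset.mul_sum, ← Finset.sum_add_distrib]
  apply Finset.sum_le_sum
  intro i _
  rw [key i]
  linarith only [sq_nonneg (a * (EY μ r fun y => N y * φ i y * l w y) - b * (EY μ r fun y => N y * ψ i y * l w y))]

end co

/-! ### the information is integrable -/

section inf

variable {μ : Measure (Fin n → ℝ)} [IsProbabilityMeasure μ] {r : ℝ} {N : (Fin n → ℝ) → ℝ}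
  {l : W → (Fin n → ℝ) → ℝ}

theorem Ch.bm (hl : Ch γ g l) (w : W) : BM (l w) :=
  ⟨hl.meas_left w, hl.bdd_left w⟩

/-- `l log l` is bounded -/
theorem Ch.bm_log (hl : Ch γ g l) (w : W) : BM fun y => l w y * log (l w y) := by
  obtain ⟨K, hK0, hK⟩ := hl.bd
  refine ⟨(hl.meas_left w).mul (hl.meas_left w).log,
    exp (K * g w) * (K * g w), fun y => ?_⟩
  have hp := hl.pos w y
  apply abs_mul_le_of
  · rw [abs_of_pos hp]; exact (hK w y).2
  · rw [abs_le]
    constructor
    · have := log_le_log (exp_pos _) (hK w y).1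
      rwa [log_exp] at this
    · have := log_le_log hp (hK w y).2
      rwa [log_exp] at this

variable [IsProbabilityMeasure γ]

theorem Inf_integrable₂ (hg : Out γ g) (hN : Pos N) (hl : Ch γ g l) :
    Integrable (fun w => EY μ r fun y => N y * (l w y * log (l w y))) γ ∧
    Integrable (fun w => ms μ r N l w * log (ms μ r N l w)) γ := by
  obtain ⟨C, hC0, hC⟩ := (SB.bm hN.sb).bdd'
  obtain ⟨K, hK0, hK⟩ := hl.bd
  have hS : ∀ w, 0 ≤ K * g w := fun w => mul_nonneg hK0 (hg.pos w).le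
  have hE : ∀ w, exp (2 * K * g w) = exp (K * g w) * exp (K * g w) := fun w => by
    rw [← exp_add]
    congr 1
    ring
  have hla : ∀ w y, |l w y| ≤ exp (K * g w) := fun w y => by
    rw [abs_of_pos (hl.pos w y)]; exact (hK w y).2
  have hlg : ∀ w y, |log (l w y)| ≤ exp (K * g w) := fun w y => by
    have h1 : |log (l w y)| ≤ K * g w := by
      rw [abs_le]
      constructor
      · have := log_le_log (exp_pos _) (hK w y).1
        rwa [log_exp] at this
      · have := log_le_log (hl.pos w y) (hK w y).2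
        rwa [log_exp] at this
    exact h1.trans ((le_add_of_nonneg_right zero_le_one).trans (add_one_le_exp _))
  constructor
  · have hm : Measurable (Function.uncurry fun (w : W) (y : Fin n → ℝ) =>
        N y * (l w y * log (l w y))) :=
      (hN.sb.measurable.comp measurable_snd).mul (hl.meas.mul hl.meas.log)
    have e : (fun w => EY μ r fun y => N y * (l w y * log (l w y)))
        = fun w => ∫ y, N y * (l w y * log (l w y)) ∂(lw μ r) := by
      funext w
      exact EY_eq_lw_bm ((SB.bm hN.sb).mul (hl.bm_log w))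
    have hm2 : Measurable fun w => EY μ r fun y => N y * (l w y * log (l w y)) := by
      rw [e]
      exact (hm.stronglyMeasurable.integral_prod_right' (ν := lw μ r)).measurable
    refine ((hg.int (2 * K)).const_mul C).mono' hm2.aestronglyMeasurable
      (Eventually.of_forall fun w => ?_)
    rw [norm_eq_abs, hE w]
    exact EY_abs_le fun y => abs_mul_le_of (hC y) (abs_mul_le_of (hla w y) (hlg w y))
  · have hm := ms_measurable (μ := μ) (r := r) hN hl
    refine ((integrable_const (1 : ℝ)).add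
      ((hg.int (2 * K)).const_mul (C ^ 2))).mono' (hm.mul hm.log).aestronglyMeasurable
      (Eventually.of_forall fun w => ?_)
    have hp := ms_pos (μ := μ) (r := r) hN hl w
    have h1 : |ms μ r N l w| ≤ C * exp (K * g w) :=
      EY_abs_le fun y => abs_mul_le_of (hC y) (hla w y)
    rw [abs_of_pos hp] at h1
    have h2 := abs_xlogx_le hp
    have h3 : ms μ r N l w ^ 2 ≤ (C * exp (K * g w)) ^ 2 :=
      pow_le_pow_left₀ hp.le h1 2
    have h4 : (C * exp (K * g w)) ^ 2 = C ^ 2 * exp (2 * K * g w) := by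
      rw [hE w]; ring
    rw [norm_eq_abs]
    show |ms μ r N l w * log (ms μ r N l w)| ≤ 1 + C ^ 2 * exp (2 * K * g w)
    rw [← h4]
    linarith only [h2, h3]

theorem Inf_integrable (hg : Out γ g) (hN : Pos N) (hl : Ch γ g l) :
    Integrable (fun w => (EY μ r fun y => N y * (l w y * log (l w y)))
      - ms μ r N l w * log (ms μ r N l w)) γ :=
  (Inf_integrable₂ hg hN hl).1.sub (Inf_integrable₂ hg hN hl).2

end inf

end Vale.Agent.P245.H468
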