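import Vale.Agent.P245.Bdl.B2

/-! # P245 (helper468): Gaussian Poincaré inequality, pointwise form for the heat semigroup -/

open MeasureTheory Real Set Filter Topology
open scoped ENNReal ContDiff

namespace Vale.Agent.P245.H468

open LS E1

variable {n : ℕ}

/-- a differentiable function with `|F| ≤ K`, `|pd F i| ≤ B` plus a large constant, squared, is in
the class `LG` -/
theorem lg_sq {F : (Fin n → ℝ) → ℝ} (hF : ContDiff ℝ 2 F) {K B L : ℝ} (hK0 : 0 < K)
    (hK : ∀ x, |F x| ≤ K) (hB0 : 0 ≤ B) (hB : ∀ i x, |pd F i x| ≤ B) (hL : 5 * K ≤ L) :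
    LG fun x => (F x + L) ^ 2 := by
  have h0 : ∀ x, 4 * K ≤ F x + L := fun x => by
    have := (abs_le.1 (hK x)).1
    linarith
  have hp : ∀ x, 0 < F x + L := fun x => by linarith [h0 x]
  have hub : ∀ x, F x + L ≤ K + L := fun x => by
    have := (abs_le.1 (hK x)).2
    linarith
  refine ⟨(hF.add contDiff_const).pow 2, fun x => pow_pos (hp x) 2, ?_, ?_⟩
  · refine ⟨|log ((4 * K) ^ 2)| + |log ((K + L) ^ 2)|, by positivity, fun z => ?_⟩
    have h1 : log ((4 * K) ^ 2) ≤ log ((F z + L) ^ 2) :=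
      log_le_log (by positivity) (pow_le_pow_left₀ (by positivity) (h0 z) 2)
    have h2 : log ((F z + L) ^ 2) ≤ log ((K + L) ^ 2) :=
      log_le_log (pow_pos (hp z) 2) (pow_le_pow_left₀ (hp z).le (hub z) 2)
    have h3 : |log ((F z + L) ^ 2)| ≤ |log ((4 * K) ^ 2)| + |log ((K + L) ^ 2)| := by
      rw [abs_le]
      constructor
      · linarith [neg_abs_le (log ((4 * K) ^ 2)), abs_nonneg (log ((K + L) ^ 2))]
      · linarith [le_abs_self (log ((K + L) ^ 2)), abs_nonneg (log ((4 * K) ^ 2))]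
    have h4 : 1 ≤ 1 + ∑ i, |z i| := by
      have : 0 ≤ ∑ i, |z i| := Finset.sum_nonneg fun i _ => abs_nonneg _
      linarith
    calc |log ((F z + L) ^ 2)| ≤ (|log ((4 * K) ^ 2)| + |log ((K + L) ^ 2)|) * 1 := by
          rw [mul_one]; exact h3
      _ ≤ _ := mul_le_mul_of_nonneg_left h4 (by positivity)
  · refine ⟨2 * B / (4 * K), by positivity, fun i z => ?_⟩
    have e : pd (fun x => (F x + L) ^ 2) i z = 2 * (F z + L) * pd F i z := by
      have h1 : HasFDerivAt F (fderiv ℝ F z) z :=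
        ((hF.differentiable (by norm_num)) z).hasFDerivAt
      have h2 : HasFDerivAt (fun x => (F x + L) ^ 2) ((2 * (F z + L)) • fderiv ℝ F z) z := by
        have h3 := (h1.add_const L).pow 2
        have e5 : (2 • (F z + L) ^ (2 - 1) : ℝ) = 2 * (F z + L) := by
          rw [nsmul_eq_mul]
          norm_num
        rw [e5] at h3
        exact h3
      unfold pd
      rw [h2.fderiv]
      simp
    rw [e, abs_mul, abs_of_pos (by linarith [hp z] : 0 < 2 * (F z + L))]
    have h1 : 2 * (F z + L) * |pd F i z| ≤ 2 * (F z + L) * B :=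
      mul_le_mul_of_nonneg_left (hB i z) (by linarith [hp z])
    refine h1.trans ?_
    have h2 : 2 * B / (4 * K) * (F z + L) ^ 2 = 2 * (F z + L) * B * ((F z + L) / (4 * K)) := by
      field_simp
    rw [h2]
    have h3 : 1 ≤ (F z + L) / (4 * K) := by
      rw [one_le_div (by positivity)]; exact h0 z
    have h4 : 0 ≤ 2 * (F z + L) * B := mul_nonneg (by linarith [hp z]) hB0
    calc 2 * (F z + L) * B = 2 * (F z + L) * B * 1 := by ring
      _ ≤ _ := mul_le_mul_of_nonneg_left h3 h4

/-- **Gaussian Poincaré inequality** -/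
theorem gauss_poincare {F : (Fin n → ℝ) → ℝ} (hF : ContDiff ℝ 2 F) {K B : ℝ}
    (hK : ∀ x, |F x| ≤ K) (hB : ∀ i x, |pd F i x| ≤ B) :
    ∫ z, (F z - ∫ y, F y ∂(gsn n)) ^ 2 ∂(gsn n) ≤ ∑ i, ∫ z, pd F i z ^ 2 ∂(gsn n) := by
  set K' : ℝ := |K| + 1 with hK'
  have hK0 : 0 < K' := by positivity
  have hKb : ∀ x, |F x| ≤ K' := fun x => (hK x).trans (by rw [hK']; linarith [le_abs_self K])
  have hBb : ∀ i x, |pd F i x| ≤ |B| := fun i x => (hB i x).trans (le_abs_self B)
  set V := ∫ z, (F z - ∫ y, F y ∂(gsn n)) ^ 2 ∂(gsn n) with hV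
  have hpdm : ∀ i, Measurable fun z => pd F i z := fun i =>
    (continuous_pd (hF.of_le (by norm_num)) i).measurable
  have key : ∀ L : ℝ, 5 * K' ≤ L → (2 - 8 * K' / (L - K')) * V
      ≤ 2 * ∑ i, ∫ z, pd F i z ^ 2 ∂(gsn n) := by
    intro L hL
    have h1 := UpA.variance_le_ent_sharp (gsn n) hF.continuous.measurable hK0 hKb hL
    refine h1.trans ?_
    have h2 := gauss_lsi (lg_sq hF hK0 hKb (abs_nonneg B) hBb hL)
    refine h2.trans (le_of_eq ?_)
    have hp : ∀ x, F x + L ≠ 0 := fun x => by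
      have := (abs_le.1 (hKb x)).1
      linarith
    have e : ∀ z, ((F z + L) ^ 2)⁻¹ * ∑ i, pd (fun x => (F x + L) ^ 2) i z ^ 2
        = 4 * ∑ i, pd F i z ^ 2 := by
      intro z
      have e1 : ∀ i, pd (fun x => (F x + L) ^ 2) i z = 2 * (F z + L) * pd F i z := by
        intro i
        have h1 : HasFDerivAt F (fderiv ℝ F z) z :=
          ((hF.differentiable (by norm_num)) z).hasFDerivAt
        have h2 : HasFDerivAt (fun x => (F x + L) ^ 2) ((2 * (F z + L)) • fderiv ℝ F z) z := by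
          have h3 := (h1.add_const L).pow 2
          have e5 : (2 • (F z + L) ^ (2 - 1) : ℝ) = 2 * (F z + L) := by
            rw [nsmul_eq_mul]
            norm_num
          rw [e5] at h3
          exact h3
        unfold pd
        rw [h2.fderiv]
        simp
      simp_rw [e1, mul_pow, ← Finset.mul_sum]
      have := hp z
      field_simp
      ring
    simp_rw [e]
    rw [integral_const_mul, integral_finsetSum]
    · ring
    · intro i _
      exact integrable_of_bdd _ ((hpdm i).pow_const 2) (K := |B| ^ 2) fun x => by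
        rw [abs_of_nonneg (sq_nonneg _), ← sq_abs]
        exact pow_le_pow_left₀ (abs_nonneg _) (hBb i x) 2
  have lim : Tendsto (fun L : ℝ => (2 - 8 * K' / (L - K')) * V) atTop (𝓝 ((2 - 0) * V)) := by
    apply Tendsto.mul_const
    apply Tendsto.const_sub
    apply Tendsto.div_atTop tendsto_const_nhds
    exact tendsto_atTop_add_const_right _ _ tendsto_id
  have h2 : (2 - 0) * V ≤ 2 * ∑ i, ∫ z, pd F i z ^ 2 ∂(gsn n) :=
    le_of_tendsto lim (by filter_upwards [eventually_ge_atTop (5 * K')] with L hL using key L hL)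
  linarith only [h2]

/-- pointwise Poincaré inequality for the heat semigroup -/
theorem PH_var {h : (Fin n → ℝ) → ℝ} (hh : SB h) {t : ℝ} (ht : 0 ≤ t) (y : Fin n → ℝ) :
    PH t (fun z => h z ^ 2) y - (PH t h y) ^ 2 ≤ t * PH t (fun z => ∑ i, pd h i z ^ 2) y := by
  obtain ⟨K, hK⟩ := hh.bdd
  have hb : ∃ B, 0 ≤ B ∧ ∀ i x, |pd h i x| ≤ B := by
    have h1 : ∀ i, ∃ C, 0 ≤ C ∧ ∀ y, |pd h i y| ≤ C := fun i => (hh.pd i).bdd'
    choose C hC0 hC using h1
    exact ⟨∑ i, C i, Finset.sum_nonneg fun i _ => hC0 i, fun i x =>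
      (hC i x).trans (Finset.single_le_sum (f := C) (fun j _ => hC0 j) (Finset.mem_univ i))⟩
  obtain ⟨B, hB0, hB⟩ := hb
  set G : (Fin n → ℝ) → ℝ := fun z => h (y + √t • z) with hG
  have hGc : ContDiff ℝ 2 G := by
    have h1 : ContDiff ℝ 2 h := hh.contDiff_nat 2
    have h2 : ContDiff ℝ 2 fun z : Fin n → ℝ => y + √t • z :=
      contDiff_const.add (contDiff_id.const_smul (√t))
    exact h1.comp h2
  have hpd : ∀ i z, pd G i z = √t * pd h i (y + √t • z) := by
    intro i z
    have h1 : HasFDerivAt h (fderiv ℝ h (y + √t • z)) (y + √t • z) :=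
      (hh.differentiable _).hasFDerivAt
    have h2 : HasFDerivAt (fun z : Fin n → ℝ => y + √t • z)
        (√t • ContinuousLinearMap.id ℝ (Fin n → ℝ)) z :=
      ((hasFDerivAt_id z).const_smul (√t)).const_add y
    have h3 := h1.comp z h2
    have h4 : fderiv ℝ G z = (fderiv ℝ h (y + √t • z)).comp
        (√t • ContinuousLinearMap.id ℝ (Fin n → ℝ)) := h3.fderiv
    unfold pd
    rw [h4]
    simp
  have hGK : ∀ z, |G z| ≤ K := fun z => hK _
  have hGB : ∀ i z, |pd G i z| ≤ √t * B := fun i z => by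
    rw [hpd, abs_mul, abs_of_nonneg (sqrt_nonneg t)]
    exact mul_le_mul_of_nonneg_left (hB i _) (sqrt_nonneg t)
  have key := gauss_poincare hGc hGK hGB
  have hGm : Measurable G := hGc.continuous.measurable
  have iG : Integrable G (gsn n) := integrable_of_bdd _ hGm hGK
  have iG2 : Integrable (fun z => G z ^ 2) (gsn n) :=
    integrable_of_bdd _ (hGm.pow_const 2) (K := |K| ^ 2) fun z => by
      rw [abs_of_nonneg (sq_nonneg _), ← sq_abs]
      exact pow_le_pow_left₀ (abs_nonneg _) ((hGK z).trans (le_abs_self K)) 2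
  have e1 : ∫ z, (G z - ∫ y, G y ∂(gsn n)) ^ 2 ∂(gsn n)
      = ∫ z, G z ^ 2 ∂(gsn n) - (∫ z, G z ∂(gsn n)) ^ 2 := by
    set c := ∫ z, G z ∂(gsn n) with hc
    have e : ∀ z, (G z - c) ^ 2 = G z ^ 2 - 2 * c * G z + c ^ 2 := fun z => by ring
    simp_rw [e]
    have i1 : Integrable (fun z => G z ^ 2 - 2 * c * G z) (gsn n) := iG2.sub (iG.const_mul _)
    rw [integral_add i1 (integrable_const _), integral_sub iG2 (iG.const_mul _),
      integral_const_mul, ← hc]
    simp only [integral_const, probReal_univ, smul_eq_mul, one_mul]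
    ring
  rw [e1] at key
  have e2 : ∑ i, ∫ z, pd G i z ^ 2 ∂(gsn n) = t * PH t (fun z => ∑ i, pd h i z ^ 2) y := by
    unfold PH
    rw [← integral_const_mul]
    rw [← integral_finsetSum]
    · congr 1
      funext z
      rw [Finset.mul_sum]
      refine Finset.sum_congr rfl fun i _ => ?_
      rw [hpd, mul_pow, sq_sqrt ht]
    · intro i _
      exact integrable_of_bdd _
        (((continuous_pd (hGc.of_le (by norm_num)) i).measurable).pow_const 2)
        (K := (√t * B) ^ 2) fun x => by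
          rw [abs_of_nonneg (sq_nonneg _), ← sq_abs]
          exact pow_le_pow_left₀ (abs_nonneg _) (hGB i x) 2
  rw [e2] at key
  exact key

end Vale.Agent.P245.H468
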