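import Vale.Agent.P245.H468.ChR
import Vale.Agent.P245.H468.GP

/-! # P245 (helper468): the lifted reveal channel ((U'2) and (U'3) of Lemma U')

A channel `l` at the level `s` is observed from the level `b ≤ s` as `l' w = PH (s - b) (l w)`. -/

open MeasureTheory Real Set Filter Topology
open scoped ENNReal ContDiff

namespace Vale.Agent.P245.H468

open LS E1

variable {n m : ℕ}

section ph

variable {W : Type*} [MeasurableSpace W] {γ : Measure W} {g : W → ℝ}

/-- joint measurability after the heat semigroup -/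
theorem PH_jmF {F : W → (Fin n → ℝ) → ℝ} (hF : Measurable (Function.uncurry F)) (u : ℝ) :
    Measurable (Function.uncurry fun (w : W) (y : Fin n → ℝ) => PH u (F w) y) := by
  have h : Measurable (fun p : (W × (Fin n → ℝ)) × (Fin n → ℝ) =>
      F p.1.1 (p.1.2 + √u • p.2)) :=
    hF.comp (Measurable.prodMk (by fun_prop) (by (clear * -; fun_prop)) :
        Measurable fun p : (W × (Fin n → ℝ)) × (Fin n → ℝ) =>
          (p.1.1, p.1.2 + √u • p.2))
  exact (h.stronglyMeasurable.integral_prod_right' (ν := gsn n)).measurable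

/-- **a smooth channel seen from a lower level is a smooth channel** -/
theorem SCh.ph [IsProbabilityMeasure γ] (hg : Out γ g) {l : W → (Fin n → ℝ) → ℝ}
    (hl : SCh γ g l) (u : ℝ) : SCh γ g (fun w => PH u (l w)) where
  ch :=
    { meas := PH_jmF hl.ch.meas u
      bd := by
        obtain ⟨K, hK0, hK⟩ := hl.ch.bd
        refine ⟨K, hK0, fun w y => ⟨?_, ?_⟩⟩
        · obtain ⟨C, hC⟩ := hl.ch.bdd_left w
          exact PH_ge (hl.ch.meas_left w) hC (fun y => (hK w y).1) u y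
        · refine (le_abs_self _).trans (PH_abs_le (fun y' => ?_) u y)
          rw [abs_of_pos (hl.ch.pos w y')]
          exact (hK w y').2
      one := fun y => by
        have h := PH_fub (G := fun _ : Fin n → ℝ => (1 : ℝ)) hg (BM.const 1) hl.ch u y
        simp only [one_mul] at h
        rw [PH_const] at h
        exact h }
  pos w := PH_pos (hl.pos w) u
  pdm i := by
    have e : (Function.uncurry fun (w : W) (y : Fin n → ℝ) => pd (PH u (l w)) i y)
        = Function.uncurry fun (w : W) (y : Fin n → ℝ) => PH u (pd (l w) i) y := by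
      funext q
      simp only [Function.uncurry, LS.pd_PH (hl.pos q.1).sb]
    rw [e]
    exact PH_jmF (hl.pdm i) u
  pdb := by
    obtain ⟨K, hK0, hK⟩ := hl.pdb
    refine ⟨K, hK0, fun w y i => ?_⟩
    rw [LS.pd_PH (hl.pos w).sb]
    exact PH_abs_le (fun y' => hK w y' i) u y

end ph

section up

variable {μ : Measure (Fin n → ℝ)} [IsProbabilityMeasure μ] {R : ℝ} {N : (Fin n → ℝ) → ℝ}
  {b s : ℝ}

/-- adjointness in the form used below -/
theorem EY_lift (hμ : CSupp μ R) (hb : 0 < b) (hbs : b ≤ s) (hN : Pos N)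
    {Φ : (Fin n → ℝ) → ℝ} (hΦ : BM Φ) :
    EY μ s (fun y => UL μ b s N y * Φ y) = EY μ b (fun y => N y * PH (s - b) Φ y) :=
  EY_UL hμ (SB.bm hN.sb) hΦ hb hbs

theorem UL_pos' (hμ : CSupp μ R) (hb : 0 < b) (hbs : b ≤ s) (hN : Pos N) :
    Pos (UL μ b s N) := (((thR' n μ R hμ).2.2 b s hb hbs).2 N hN).1

theorem UL_one (hμ : CSupp μ R) (hb : 0 < b) (hbs : b ≤ s) (hN : Pos N) (h1 : EY μ b N = 1) :
    EY μ s (UL μ b s N) = 1 := by
  have h := EY_lift hμ hb hbs hN (BM.const 1)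
  simp only [mul_one] at h
  rw [h, PH_const]
  simpa using h1

/-- the output law does not depend on the level from which the channel is observed -/
theorem ms_lift {W : Type*} [MeasurableSpace W] {γ : Measure W} {g : W → ℝ} (hμ : CSupp μ R)
    (hb : 0 < b) (hbs : b ≤ s) (hN : Pos N) {l : W → (Fin n → ℝ) → ℝ} (hl : Ch γ g l) (w : W) :
    ms μ b N (fun w => PH (s - b) (l w)) w = ms μ s (UL μ b s N) l w :=
  (EY_lift hμ hb hbs hN (hl.bm w)).symm

/-- entropy of one output of the lifted channel: pointwise Gibbs inequality -/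
theorem gibbs_pt {a q : ℝ} (ha : 0 < a) (hq : 0 < q) : a * log q + a - q ≤ a * log a := by
  have h := log_le_sub_one_of_pos (div_pos hq ha)
  rw [log_div hq.ne' ha.ne'] at h
  have h2 := mul_le_mul_of_nonneg_left h ha.le
  have h3 : a * (q / a - 1) = q - a := by field_simp
  rw [h3] at h2
  linarith only [h2]

/-- the data of the lifted reveal channel at the state `y` -/
theorem adL {Ψ : Fin m → (Fin n → ℝ) → ℝ} (hΨ : ∀ i, SB (Ψ i)) (u : ℝ) (y : Fin n → ℝ) :
    LS.AD (gsn n) (fun _ => (1 : ℝ)) (fun z => fv Ψ (y + √u • z)) where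
  Nm := measurable_const
  Vm i := (hΨ i).measurable.comp (by fun_prop)
  Nb := ⟨1, fun _ => by simp⟩
  Nl := ⟨1, one_pos, fun _ => le_rfl⟩
  Vb := by
    obtain ⟨B, hB0, hB⟩ := fv_bdd hΨ
    exact ⟨B, hB0, fun z i => hB _ i⟩
  N1 := by simp

theorem lift_eq_pw (c : ℝ) (Ψ : Fin m → (Fin n → ℝ) → ℝ) (u : ℝ) (y : Fin n → ℝ)
    (w : Fin m → ℝ) :
    PH u (RL c Ψ w) y = pw (gsn n) (fun _ => (1 : ℝ)) (fun z => fv Ψ (y + √u • z)) c w := by
  unfold PH pw
  simp only [one_mul]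
  rfl

/-- mean of the output given the state at the lower level -/
theorem lift_mean {c : ℝ} {Ψ : Fin m → (Fin n → ℝ) → ℝ} (hΨ : ∀ i, SB (Ψ i)) (hc : 0 ≤ c)
    (u : ℝ) (y : Fin n → ℝ) (i : Fin m) :
    Integrable (fun w => w i * PH u (RL c Ψ w) y) (gsn m) ∧
      ∫ w, w i * PH u (RL c Ψ w) y ∂(gsn m) = √c * PH u (Ψ i) y := by
  have hA := adL hΨ u y
  have e0 : ∀ w : Fin m → ℝ, w i * PH u (RL c Ψ w) y
      = ∫ z, w i * lr c w (fv Ψ (y + √u • z)) ∂(gsn n) := by
    intro w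
    rw [integral_const_mul]
    rfl
  have hE : EGP fun q : (Fin m → ℝ) × (Fin n → ℝ) => q.1 i * lr c q.1 (fv Ψ (y + √u • q.2)) :=
    (EGP.coord i).mul (hA.egp_lr hc)
  have hm : Measurable fun q : (Fin m → ℝ) × (Fin n → ℝ) =>
      q.1 i * lr c q.1 (fv Ψ (y + √u • q.2)) :=
    ((measurable_pi_apply i).comp measurable_fst).mul (hA.meas_lr c)
  simp_rw [e0]
  refine ⟨(hE.integrable (P := gsn n) hm).integral_prod_left, ?_⟩
  rw [hE.fubini hm]
  have e1 : ∀ z : Fin n → ℝ, ∫ w : Fin m → ℝ, w i * lr c w (fv Ψ (y + √u • z)) ∂(gsn m)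
      = √c * Ψ i (y + √u • z) := by
    intro z
    have h := integral_lr hc (fv Ψ (y + √u • z)) (fun w => w i)
    have e2 : ∀ w : Fin m → ℝ, w i * lr c w (fv Ψ (y + √u • z))
        = lr c w (fv Ψ (y + √u • z)) * w i := fun w => mul_comm _ _
    simp_rw [e2]
    rw [h]
    have i1 : Integrable (fun w : Fin m → ℝ => w i) (gsn m) :=
      (EG1.coord i).integrable (continuous_apply i).aestronglyMeasurable
    rw [integral_add i1 (integrable_const _), gauss_mean]
    simp [fv]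
  simp_rw [e1]
  rw [integral_const_mul]
  rfl

/-- **entropy of the outputs given the state at the lower level** -/
theorem lift_ent {c : ℝ} {Ψ : Fin m → (Fin n → ℝ) → ℝ} (hΨ : ∀ i, SB (Ψ i)) (hc : 0 ≤ c)
    (u : ℝ) (y : Fin n → ℝ) :
    c / 2 * ∑ i, PH u (Ψ i) y ^ 2
      ≤ ∫ w, PH u (RL c Ψ w) y * log (PH u (RL c Ψ w) y) ∂(gsn m) := by
  have hA := adL hΨ u y
  set v : Fin m → ℝ := fun i => PH u (Ψ i) y with hv
  set L : (Fin m → ℝ) → ℝ := fun w => PH u (RL c Ψ w) y with hL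
  have eL : L = pw (gsn n) (fun _ => (1 : ℝ)) (fun z => fv Ψ (y + √u • z)) c := by
    funext w
    exact lift_eq_pw c Ψ u y w
  have iL : Integrable L (gsn m) := by rw [eL]; exact hA.pw_integrable hc
  have iLl : Integrable (fun w => L w * log (L w)) (gsn m) := by
    rw [eL]; exact hA.pw_int_log hc
  have hL1 : ∫ w, L w ∂(gsn m) = 1 := by rw [eL]; exact hA.int_pw hc
  have hLp : ∀ w, 0 < L w := fun w => by rw [eL]; exact hA.pw_pos c w
  have iq : Integrable (fun w => lr c w v) (gsn m) := by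
    by_contra hcon
    have h1 := integral_lr_one hc v
    rw [integral_undef hcon] at h1
    exact zero_ne_one h1
  have i3 : ∀ i, Integrable (fun w : Fin m → ℝ => w i * L w) (gsn m) := fun i =>
    (lift_mean hΨ hc u y i).1
  have e3 : ∀ i, ∫ w : Fin m → ℝ, w i * L w ∂(gsn m) = √c * v i := fun i =>
    (lift_mean hΨ hc u y i).2
  have i4 : Integrable (fun w : Fin m → ℝ => ∑ i, v i * (w i * L w)) (gsn m) :=
    integrable_finsetSum _ fun i _ => (i3 i).const_mul (v i)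
  have i5 : Integrable (fun w : Fin m → ℝ => √c * ∑ i, v i * (w i * L w)) (gsn m) :=
    i4.const_mul _
  have i6 : Integrable (fun w : Fin m → ℝ => (1 - c / 2 * ∑ i, v i ^ 2) * L w) (gsn m) :=
    iL.const_mul _
  have i7 : Integrable (fun w : Fin m → ℝ => √c * ∑ i, v i * (w i * L w)
      + (1 - c / 2 * ∑ i, v i ^ 2) * L w) (gsn m) := i5.add i6
  have key : ∫ w : Fin m → ℝ, (√c * ∑ i, v i * (w i * L w)
      + (1 - c / 2 * ∑ i, v i ^ 2) * L w - lr c w v) ∂(gsn m) = c / 2 * ∑ i, v i ^ 2 := by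
    rw [integral_sub i7 iq, integral_add i5 i6, integral_const_mul, integral_const_mul,
      integral_finsetSum _ fun i _ => (i3 i).const_mul (v i), integral_lr_one hc, hL1]
    simp_rw [integral_const_mul, e3]
    have e4 : ∑ i, v i * (√c * v i) = √c * ∑ i, v i ^ 2 := by
      rw [Finset.mul_sum]
      exact Finset.sum_congr rfl fun i _ => by ring
    rw [e4]
    have h3 : √c * √c = c := mul_self_sqrt hc
    linear_combination (∑ i, v i ^ 2) * h3
  rw [← key]
  refine integral_mono (i7.sub iq) iLl fun w => ?_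
  have h := gibbs_pt (hLp w) (lr_pos c w v)
  refine le_trans (le_of_eq ?_) h
  have e5 : log (lr c w v) = √c * ∑ i, w i * v i - c / 2 * ∑ i, v i ^ 2 := by
    unfold lr
    rw [log_exp]
  rw [e5]
  have e6 : ∑ i, v i * (w i * L w) = L w * ∑ i, w i * v i := by
    rw [Finset.mul_sum]
    exact Finset.sum_congr rfl fun i _ => by ring
  show √c * ∑ i, v i * (w i * L w) + (1 - c / 2 * ∑ i, v i ^ 2) * L w - lr c w v = _
  rw [e6]
  ring

/-- the average over the outputs of `l log l`, pointwise lower bound -/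
theorem ent_ge {W : Type*} [MeasurableSpace W] {γ : Measure W} {g : W → ℝ}
    [IsProbabilityMeasure γ] (hg : Out γ g) (hN : Pos N) {l : W → (Fin n → ℝ) → ℝ}
    (hl : Ch γ g l) {Φ : (Fin n → ℝ) → ℝ} (hΦ : SB Φ)
    (h : ∀ y, Φ y ≤ ∫ w, l w y * log (l w y) ∂γ) (r : ℝ) :
    EY μ r (fun y => N y * Φ y) ≤ ∫ w, (EY μ r fun y => N y * (l w y * log (l w y))) ∂γ := by
  obtain ⟨C, hC0, hC⟩ := (SB.bm hN.sb).bdd'
  obtain ⟨K, hK0, hK⟩ := hl.bd
  have hE : ∀ w, exp (2 * K * g w) = exp (K * g w) * exp (K * g w) := fun w => by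
    rw [← exp_add]
    congr 1
    ring
  have hla : ∀ w y, |l w y| ≤ exp (K * g w) := fun w y => by
    rw [abs_of_pos (hl.pos w y)]; exact (hK w y).2
  have hlg : ∀ w y, |log (l w y)| ≤ exp (K * g w) := fun w y => by
    have h1 : |log (l w y)| ≤ K * g w := by
      rw [abs_le]
      constructor
      · have := log_le_log (exp_pos _) (hK w y).1
        rwa [log_exp] at this
      · have := log_le_log (hl.pos w y) (hK w y).2
        rwa [log_exp] at this
    exact h1.trans ((le_add_of_nonneg_right zero_le_one).trans (add_one_le_exp _))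
  have hm : Measurable (Function.uncurry fun (w : W) (y : Fin n → ℝ) =>
      N y * (l w y * log (l w y))) :=
    (hN.sb.measurable.comp measurable_snd).mul (hl.meas.mul hl.meas.log)
  have hb : ∀ w y, |N y * (l w y * log (l w y))| ≤ C * exp (2 * K * g w) := fun w y => by
    rw [hE w]
    exact abs_mul_le_of (hC y) (abs_mul_le_of (hla w y) (hlg w y))
  have e : (fun w => EY μ r fun y => N y * (l w y * log (l w y)))
      = fun w => ∫ y, N y * (l w y * log (l w y)) ∂(lw μ r) := by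
    funext w
    exact EY_eq_lw_bm ((SB.bm hN.sb).mul (hl.bm_log w))
  rw [e, swap_of_bd (P := lw μ r) hg hm hb, EY_eq_lw_sb μ r (hN.sb.mul hΦ)]
  refine integral_mono ((hN.sb.mul hΦ).integrable _) (int_prod_of_bd (P := lw μ r) hg hm hb).integral_prod_right
    fun y => ?_
  show N y * Φ y ≤ ∫ w, N y * (l w y * log (l w y)) ∂γ
  rw [integral_const_mul]
  exact mul_le_mul_of_nonneg_left (h y) (hN.pos y).le

variable {c : ℝ} {Ψ : Fin m → (Fin n → ℝ) → ℝ}

/-- **(U'2): information of the lifted reveal channel** -/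
theorem lift_Inf_ge (hμ : CSupp μ R) (hb : 0 < b) (hbs : b ≤ s) (hN : Pos N) (h1 : EY μ b N = 1)
    (hΨ : ∀ i, SB (Ψ i)) (hc : 0 ≤ c) :
    c / 2 * (EY μ b (fun y => N y * ∑ i, PH (s - b) (Ψ i) y ^ 2)
        - Co (gsn m) μ s (UL μ b s N) Ψ (RL c Ψ))
      ≤ Inf (gsn m) μ b N (fun w => PH (s - b) (RL c Ψ w)) := by
  have hN' := UL_pos' hμ hb hbs hN
  have h1' := UL_one hμ hb hbs hN h1
  have hS : SCh (gsn m) (gw m) (fun w => PH (s - b) (RL c Ψ w)) :=
    (sch_RL hΨ hc).ph (out_gw m) (s - b)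
  have hi := Inf_integrable₂ (μ := μ) (r := b) (out_gw m) hN hS.ch
  have hms : ∀ w, ms μ b N (fun w => PH (s - b) (RL c Ψ w)) w
      = pw (lw μ s) (UL μ b s N) (fv Ψ) c w := fun w => by
    rw [ms_lift hμ hb hbs hN (ch_RL hΨ hc) w, ms_RL hN' hΨ]
  have hA := adR (φ := Ψ) hN' h1' hΨ
  have e1 : Inf (gsn m) μ b N (fun w => PH (s - b) (RL c Ψ w))
      = (∫ w, (EY μ b fun y => N y * (PH (s - b) (RL c Ψ w) y
          * log (PH (s - b) (RL c Ψ w) y))) ∂(gsn m))
        - ∫ w, pw (lw μ s) (UL μ b s N) (fv Ψ) c w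
          * log (pw (lw μ s) (UL μ b s N) (fv Ψ) c w) ∂(gsn m) := by
    unfold Inf
    rw [integral_sub hi.1 hi.2]
    simp_rw [hms]
  have h2 := hA.pw_lsi hc
  rw [← Co_RL hN' hΨ] at h2
  have hsb : SB fun y => c / 2 * ∑ i, PH (s - b) (Ψ i) y ^ 2 :=
    SB.const_mul _ (SB.sum _ fun i _ => (PH_sb (hΨ i) _).pow 2)
  have h3 := ent_ge (μ := μ) (out_gw m) hN hS.ch hsb (fun y => lift_ent hΨ hc (s - b) y) b
  have e2 : EY μ b (fun y => N y * (c / 2 * ∑ i, PH (s - b) (Ψ i) y ^ 2))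
      = c / 2 * EY μ b (fun y => N y * ∑ i, PH (s - b) (Ψ i) y ^ 2) := by
    rw [← EY_const_mul]
    congr 1
    funext y
    ring
  rw [e2] at h3
  rw [e1, mul_sub]
  linarith only [h2, h3]

/-- **second moment of the lifted field** (Gaussian Poincaré inequality) -/
theorem lift_sq_ge (hμ : CSupp μ R) (hb : 0 < b) (hbs : b ≤ s) (hN : Pos N)
    (hΨ : ∀ i, SB (Ψ i)) :
    IP μ s (UL μ b s N) Ψ Ψ - (s - b) * DE μ s (UL μ b s N) Ψ
      ≤ EY μ b (fun y => N y * ∑ i, PH (s - b) (Ψ i) y ^ 2) := by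
  have ht : 0 ≤ s - b := sub_nonneg.2 hbs
  have s1 : SB fun y => ∑ i, Ψ i y * Ψ i y := SB.sum _ fun i _ => (hΨ i).mul (hΨ i)
  have s2 : SB fun y => ∑ i, ∑ j, pd (Ψ i) j y ^ 2 :=
    SB.sum _ fun i _ => SB.sum _ fun j _ => ((hΨ i).pd j).pow 2
  have e1 : IP μ s (UL μ b s N) Ψ Ψ
      = EY μ b (fun y => N y * PH (s - b) (fun y => ∑ i, Ψ i y * Ψ i y) y) :=
    EY_lift hμ hb hbs hN (SB.bm s1)
  have e2 : DE μ s (UL μ b s N) Ψ
      = EY μ b (fun y => N y * PH (s - b) (fun y => ∑ i, ∑ j, pd (Ψ i) j y ^ 2) y) :=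
    EY_lift hμ hb hbs hN (SB.bm s2)
  have hpt : ∀ y, PH (s - b) (fun y => ∑ i, Ψ i y * Ψ i y) y
      ≤ ∑ i, PH (s - b) (Ψ i) y ^ 2
        + (s - b) * PH (s - b) (fun y => ∑ i, ∑ j, pd (Ψ i) j y ^ 2) y := by
    intro y
    rw [PH_finsum (N := fun i y => Ψ i y * Ψ i y) Finset.univ (fun i _ => (hΨ i).mul (hΨ i)),
      PH_finsum (N := fun i y => ∑ j, pd (Ψ i) j y ^ 2) Finset.univ
        (fun i _ => SB.sum _ fun j _ => ((hΨ i).pd j).pow 2), Finset.mul_sum,
      ← Finset.sum_add_distrib]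
    refine Finset.sum_le_sum fun i _ => ?_
    have h := PH_var (hΨ i) ht y
    have e : (fun z => Ψ i z ^ 2) = fun z => Ψ i z * Ψ i z := by
      funext z
      ring
    rw [e] at h
    linarith only [h]
  have b1 : BM fun y => N y * PH (s - b) (fun y => ∑ i, Ψ i y * Ψ i y) y :=
    (SB.bm hN.sb).mul ((SB.bm s1).ph _)
  have s3 : SB fun y => ∑ i, PH (s - b) (Ψ i) y ^ 2 :=
    SB.sum _ fun i _ => (PH_sb (hΨ i) _).pow 2
  have s4 : SB fun y => PH (s - b) (fun y => ∑ i, ∑ j, pd (Ψ i) j y ^ 2) y := PH_sb s2 _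
  have hle : EY μ b (fun y => N y * PH (s - b) (fun y => ∑ i, Ψ i y * Ψ i y) y)
      ≤ EY μ b (fun y => N y * ∑ i, PH (s - b) (Ψ i) y ^ 2
        + (s - b) * (N y * PH (s - b) (fun y => ∑ i, ∑ j, pd (Ψ i) j y ^ 2) y)) := by
    refine EY_mono_bm b1 (SB.bm ((hN.sb.mul s3).add ((hN.sb.mul s4).const_mul _))) fun y => ?_
    have := mul_le_mul_of_nonneg_left (hpt y) (hN.pos y).le
    linarith only [this]
  rw [EY_add μ b (hN.sb.mul s3) ((hN.sb.mul s4).const_mul _), EY_const_mul] at hle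
  rw [e1, e2]
  linarith only [hle]

/-- **(U'2) + (U'3)**: lower half of Lemma U' -/
theorem up23 (hμ : CSupp μ R) (hb : 0 < b) (hbs : b ≤ s) (hN : Pos N) (h1 : EY μ b N = 1)
    (hΨ : ∀ i, SB (Ψ i)) (hc : 0 ≤ c) {κ D : ℝ} (hD : DBL μ b κ D) :
    c / 2 * (IP μ s (UL μ b s N) Ψ Ψ - (s - b) * DE μ s (UL μ b s N) Ψ
        - Co (gsn m) μ s (UL μ b s N) Ψ (RL c Ψ))
      ≤ κ * JF (gsn m) μ b N (fun w => PH (s - b) (RL c Ψ w))
        + (κ * FI μ b N + D - HE μ b N) := by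
  have hS : SCh (gsn m) (gw m) (fun w => PH (s - b) (RL c Ψ w)) :=
    (sch_RL hΨ hc).ph (out_gw m) (s - b)
  have a1 := ch_lsi (μ := μ) (r := b) (out_gw m) hN h1 hS hD
  have a2 := lift_Inf_ge hμ hb hbs hN h1 hΨ hc
  have a3 := mul_le_mul_of_nonneg_left (lift_sq_ge hμ hb hbs hN hΨ) (by positivity : 0 ≤ c / 2)
  linarith only [a1, a2, a3]

end up

end Vale.Agent.P245.H468
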