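import Vale.Agent.P245.H468.ChT

/-! # P245 (helper468): the Gibbs bound `StG0` for channels with an arbitrary output space -/

open MeasureTheory Real Set Filter Topology
open scoped ENNReal ContDiff

namespace Vale.Agent.P245.H468

open LS E1

variable {n : ℕ} {W : Type*} [MeasurableSpace W] {γ : Measure W} {g : W → ℝ}

/-- **Gibbs bound for an arbitrary channel** (`E1.StG0` for any output space) -/
theorem thG0 [IsProbabilityMeasure γ] (hg : Out γ g) {μ : Measure (Fin n → ℝ)}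
    [IsProbabilityMeasure μ] {R A : ℝ} (h : CSupp μ R) (hA : 1 ≤ A) (hexp : ExpM μ A) {s r : ℝ}
    {N : (Fin n → ℝ) → ℝ} (hs : 0 < s) (hsr : s ≤ r) (hN : Pos N) (hN1 : EY μ s N = 1)
    {l : W → (Fin n → ℝ) → ℝ} (hl : Ch γ g l) :
    Co γ μ r (UL μ s r N) (dx μ s r N) l
      ≤ 8 * (HE μ s N + Inf γ μ r (UL μ s r N) l + log A) := by
  have hr : 0 < r := hs.trans_le hsr
  obtain ⟨hR1, -, hR2⟩ := thR' n μ R h
  obtain ⟨hR3, hR4⟩ := hR2 s r hs hsr
  obtain ⟨hU, hR5, -⟩ := hR4 N hN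
  have hX : ∀ t : ℝ, ∀ i, 0 < t → BM (XB μ t i) := fun t i ht => SB.bm (hR1 t i ht)
  obtain ⟨hK1, hK2, hK3, hK4, hK5, hK6⟩ := (thK n μ R h).1 s r hs hsr
  obtain ⟨ε, hε, hNε⟩ := hN.lb
  have hNb : BM N := SB.bm hN.sb
  have hUb : BM (UL μ s r N) := SB.bm hU.sb
  have hHb : BM (UL μ s r fun y => N y * log (N y)) := (hK1 _ (hNb.ent hε hNε)).1
  obtain ⟨K, hK0, hK⟩ := hl.bd
  have hlb : ∀ w, BM (l w) := fun w => ⟨hl.meas_left w, hl.bdd_left w⟩
  have hll : ∀ w, BM (fun y => l w y * log (l w y)) := fun w =>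
    (hlb w).ent (exp_pos _) fun y => (hK w y).1
  set U := UL μ s r N with hUdef
  set P : W → ℝ := ms μ r U l with hPdef
  have hPp : ∀ w, 0 < P w := fun w => ms_pos hU hl w
  have hPm : Measurable P := ms_measurable hU hl
  have hPe : ∀ w, P w = ∫ y, U y * l w y ∂(lw μ r) := fun w => ms_eq hU hl w
  set T1 : W → ℝ := fun w =>
    EY μ r (fun y => UL μ s r (fun y => N y * log (N y)) y * l w y) with hT1
  set T2 : W → ℝ := fun w => EY μ r (fun y => U y * (l w y * log (l w y))) with hT2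
  obtain ⟨CU, hCU⟩ := hUb.2
  obtain ⟨CH, hCH⟩ := hHb.2
  have eP : P = fun w => ∫ y, U y * l w y ∂(lw μ r) := funext hPe
  have eT1 : T1 = fun w => ∫ y, UL μ s r (fun y => N y * log (N y)) y * l w y ∂(lw μ r) := by
    funext w
    exact EY_bm (hHb.mul (hlb w)) r
  have iP : Integrable P γ := by
    rw [eP]; exact hl.int_out hg hUb.1 hCU
  have iT1 : Integrable T1 γ := by
    rw [eT1]; exact hl.int_out hg hHb.1 hCH
  have iT2 : Integrable T2 γ := (Inf_integrable₂ (μ := μ) (r := r) hg hU hl).1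
  have iPl : Integrable (fun w => P w * log (P w)) γ :=
    (Inf_integrable₂ (μ := μ) (r := r) hg hU hl).2
  have one : ∀ f : (Fin n → ℝ) → ℝ, BM f → EY μ r (UL μ s r f) = EY μ s f := by
    intro f hf
    have := EY_UL h hf (BM.const (n := n) 1) hs hsr
    simpa [PH_const] using this
  have vP : ∫ w, P w ∂γ = 1 := by
    rw [eP, hl.fubini hg hUb.1 hCU, ← EY_bm hUb r, one N hNb, hN1]
  have vT1 : ∫ w, T1 w ∂γ = HE μ s N := by
    rw [eT1, hl.fubini hg hHb.1 hCH, ← EY_bm hHb r, one _ (hNb.ent hε hNε)]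
    rfl
  have i1 : Integrable (fun w => P w * log A + T1 w) γ := (iP.mul_const _).add iT1
  have i2 : Integrable (fun w => T2 w - P w * log (P w)) γ := iT2.sub iPl
  have iR : Integrable (fun w => 4 * ((P w * log A + T1 w) + (T2 w - P w * log (P w)))) γ :=
    (i1.add i2).const_mul 4
  have main : ∀ w, (∑ i, (EY μ r fun y => U y * dx μ s r N i y * l w y) ^ 2) / P w
      ≤ 4 * ((P w * log A + T1 w) + (T2 w - P w * log (P w))) := fun w =>
    gibbs_one h hA hexp hs hsr hX hN hU (hlb w) (exp_pos _) (fun y => (hK w y).1) rfl (hPp w)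
  have hnn : ∀ w, 0 ≤ (∑ i, (EY μ r fun y => U y * dx μ s r N i y * l w y) ^ 2) / P w :=
    fun w => div_nonneg (Finset.sum_nonneg fun i _ => sq_nonneg _) (hPp w).le
  have fin := integral_mono_of_nonneg (μ := γ) (Eventually.of_forall hnn) iR
    (Eventually.of_forall main)
  have f0 : 0 ≤ Co γ μ r U (dx μ s r N) l := integral_nonneg hnn
  have hInf : Inf γ μ r U l = ∫ w, (T2 w - P w * log (P w)) ∂γ := rfl
  rw [integral_const_mul, integral_add i1 i2, integral_add (iP.mul_const _) iT1,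
    integral_mul_const, vP, vT1, ← hInf, one_mul] at fin
  have fin' : Co γ μ r U (dx μ s r N) l ≤ 4 * (log A + HE μ s N + Inf γ μ r U l) := fin
  linarith only [fin', f0]

end Vale.Agent.P245.H468
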