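import Vale.Agent.P245.H468.ChB0
import Vale.Agent.P245.H468.ChG0

/-! # P245 (helper468): the bootstrap for channels with an arbitrary output space

`E1.StBoot` with the conclusion for every output space, and its iteration. -/

open MeasureTheory Real Set Filter Topology
open scoped ENNReal ContDiff

namespace Vale.Agent.P245.H468

open LS E1

variable {n : ℕ} {W : Type*} [MeasurableSpace W] {γ : Measure W} {g : W → ℝ}

/-- entropy is nonnegative -/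
theorem HE_nonneg' {μ : Measure (Fin n → ℝ)} [IsProbabilityMeasure μ] {r : ℝ}
    {N : (Fin n → ℝ) → ℝ} (hN : Pos N) (h1 : EY μ r N = 1) : 0 ≤ HE μ r N := by
  unfold HE
  have hb : BM fun y => N y - 1 := (SB.bm hN.sb).sub (BM.const 1)
  have h2 : EY μ r (fun y => N y - 1) ≤ EY μ r (fun y => N y * log (N y)) := by
    refine EY_mono_bm hb (SB.bm (hN.sb.mul hN.log)) fun y => ?_
    have hp := hN.pos y
    have h3 := mul_le_mul_of_nonneg_left (one_sub_inv_le_log_of_pos hp) hp.le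
    rw [mul_sub, mul_inv_cancel₀ hp.ne'] at h3
    linarith
  have h3 : EY μ r (fun y => N y - 1) = 0 := by
    rw [EY_sub_bm (SB.bm hN.sb) (BM.const 1), h1, EY_eq_lw_bm (BM.const 1)]
    simp
  linarith

/-- Gibbs bound at the top level of the up leg -/
theorem boot_gibbsG [IsProbabilityMeasure γ] (hg : Out γ g) {μ : Measure (Fin n → ℝ)}
    [IsProbabilityMeasure μ] {R A δ s r x h m : ℝ} (hcs : CSupp μ R) (hA1 : 1 ≤ A)
    (hexp : ExpM μ A) {V : (Fin n → ℝ) → ℝ} (hδ : 0 < δ) (hs : s = 2 * δ) (hr : r = 3 * δ)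
    (hV : Pos V) (hV1 : EY μ s V = 1) (hVH : LS.HE μ s V ≤ h)
    (hUp : Pos (UL μ s r V))
    (hmm : E1.IP μ r (UL μ s r V) (mm μ s r V) (mm μ s r V) ≤ m) :
    Pred γ g μ r (UL μ s r V) (sN (UL μ s r V)) x (16 / δ ^ 2 * (h + x + log A) + 8 * m) := by
  have hs0 : 0 < s := by rw [hs]; positivity
  have hsr : s ≤ r := by rw [hs, hr]; linarith only [hδ]
  obtain ⟨_, hreg⟩ := (thR' n μ R hcs).2.2 s r hs0 hsr
  obtain ⟨_, hsb, hid⟩ := hreg V hV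
  have e : sN (UL μ s r V) = fun i y => 1 / δ * dx μ s r V i y + 2 * mm μ s r V i y := by
    funext i y
    have h1 := hid i y
    have e1 : r - s = δ := by rw [hs, hr]; ring
    rw [e1, hs] at h1
    rw [hs]
    field_simp
    linarith only [h1]
  intro l hl hI
  have h1 := Co_comb (μ := μ) (r := r) hg hUp (fun i => (hsb i).2.2.2) (fun i => (hsb i).2.2.1) hl
    (1 / δ) 2
  have h2 := thG0 hg hcs hA1 hexp hs0 hsr hV hV1 hl
  have h3 := Co_le (μ := μ) (r := r) hg hUp (fun i => (hsb i).2.2.1) hl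
  rw [← e] at h1
  have h4 : Co γ μ r (UL μ s r V) (dx μ s r V) l ≤ 8 * (h + x + log A) :=
    h2.trans (by linarith only [hVH, hI])
  have h5 : 2 * (1 / δ) ^ 2 * Co γ μ r (UL μ s r V) (dx μ s r V) l
      ≤ 2 * (1 / δ) ^ 2 * (8 * (h + x + log A)) :=
    mul_le_mul_of_nonneg_left h4 (by positivity)
  have e2 : 2 * (1 / δ) ^ 2 * (8 * (h + x + log A)) = 16 / δ ^ 2 * (h + x + log A) := by
    field_simp; ring
  rw [e2] at h5
  have h3' : Co γ μ r (UL μ s r V) (mm μ s r V) l ≤ m := h3.trans hmm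
  linarith only [h3', h1, h5]

/-- the bootstrap, arbitrary output space -/
theorem bootG [IsProbabilityMeasure γ] (hg : Out γ g) {ρ0 : (Fin n → ℝ) → ℝ} {R A : ℝ}
    (hρ : LCd ρ0) (hprob : IsProbabilityMeasure (mu ρ0)) (hcs : CSupp (mu ρ0) R) (hA1 : 1 ≤ A)
    (hexp : ExpM (mu ρ0) A) {N : (Fin n → ℝ) → ℝ} {δ κ σ α x X D : ℝ} (hδ : 0 < δ)
    (hδκ : 2000 * δ ≤ κ) (hDBS : DBS (mu ρ0) (2 * δ) δ κ D) (hσ : σ ∈ Icc (2 * δ) (3 * δ))
    (hN : Pos N) (hN1 : EY (mu ρ0) σ N = 1) (hα : 0 ≤ α)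
    (hαJ : 10 ^ 4 * α ≤ κ * LS.FI (mu ρ0) σ N)
    (hnear : D - α ≤ LS.HE (mu ρ0) σ N - κ * LS.FI (mu ρ0) σ N)
    (hx : 2 * δ * LS.FI (mu ρ0) σ N ≤ x) (hX0 : 0 ≤ X) (hXJ : X ≤ LS.FI (mu ρ0) σ N)
    (hPred : E1.Pred (mu ρ0) σ N (sN N) x X) :
    Pred γ g (mu ρ0) σ N (sN N) x
      (400 / δ ^ 2 * (LS.HE (mu ρ0) σ N + x + log A) + 2000 * α / κ + X / 2) := by
  have := hprob
  obtain ⟨⟨hVpos, hV1, hVH⟩, hdn, hup⟩ := thPathA' n ρ0 R hρ hprob hcs N (PH (σ - 2 * δ) N) δ κ σ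
    α x X D hδ hδκ hDBS hσ hN hN1 hα hαJ hnear hx hX0 hXJ hPred rfl
  have hκ : 0 < κ := by linarith only [hδ, hδκ]
  have hsr : (2 : ℝ) * δ ≤ 3 * δ := by linarith only [hδ]
  have hrr : 3 * δ ∈ Icc (2 * δ) (3 * δ) := ⟨hsr, le_rfl⟩
  set J0 := LS.FI (mu ρ0) σ N with hJ0
  have hJ00 : 0 ≤ J0 := hX0.trans hXJ
  set M : ℝ := 10 * α + 8 * δ * X with hM
  have hM0 : 0 ≤ M := by (clear * - hα hδ hX0; positivity)
  have hMκ : M / κ = 10 * (α / κ) + 8 * (δ / κ) * X := by rw [hM]; (clear * - hκ; field_simp)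
  have hδκ' : δ / κ ≤ 1 / 2000 := by rw [div_le_iff₀ hκ]; linarith only [hδκ]
  have hδX : δ / κ * X ≤ 1 / 2000 * X := mul_le_mul_of_nonneg_right hδκ' hX0
  have hα' : α / κ ≤ 1 / 10000 * J0 := by rw [div_le_iff₀ hκ]; linarith only [hαJ]
  have hα0 : 0 ≤ α / κ := div_nonneg hα hκ.le
  have hMJ : M / κ ≤ 6 / 1000 * J0 := by rw [hMκ]; linarith only [hX0, hXJ, hδX, hα']
  obtain ⟨hU1, hU2, _, _, _, _, hmm, _⟩ := hup (3 * δ) hrr
  obtain ⟨hG1, hG2⟩ := boot_gibbs (x := x) (thR' n) (thCo n) (thG0' n) hcs hA1 hexp hδ rfl rfl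
    hVpos hV1 hVH hU1 hU2 hmm
  have hG1' := boot_gibbsG (x := x) hg hcs hA1 hexp hδ rfl rfl hVpos hV1 hVH hU1 hmm
  have hx0 : 0 ≤ x := (by (clear * - hδ hJ00; positivity) : 0 ≤ 2 * δ * J0).trans hx
  set L : ℝ := LS.HE (mu ρ0) σ N + x + log A with hL
  have hL0 : 0 ≤ L := by rw [hL]; linarith only [hVH, hG2, hx0]
  set K1 : ℝ := 16 / δ ^ 2 * L + 8 * (M / κ) with hK1
  have hLδ : 0 ≤ 1 / δ ^ 2 * L := by (clear * - hδ hL0; positivity)
  have hK1e : K1 = 16 * (1 / δ ^ 2 * L) + 8 * (M / κ) := by rw [hK1]; ring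
  have hMκ0 : 0 ≤ M / κ := div_nonneg hM0 hκ.le
  have hK10 : 0 ≤ K1 := by rw [hK1e]; (clear * - hδ hL0 hα hX0 hκ; positivity)
  have hY : 400 / δ ^ 2 * L + 2000 * α / κ + X / 2
      = 400 * (1 / δ ^ 2 * L) + 2000 * (α / κ) + X / 2 := by ring
  rw [hY]
  have hsbN : ∀ i, SB (sN N i) := fun i => hN.div (hN.sb.pd i)
  have hFI : J0 = IP (mu ρ0) σ N (sN N) (sN N) := (FI_eq_IP (mu ρ0) σ hN)
  rcases le_or_gt J0 (10 * K1) with hcase | hcase
  · -- trivial case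
    intro l hl hI
    have h1 := Co_le (μ := mu ρ0) (r := σ) hg hN hsbN hl
    rw [← hFI] at h1
    refine h1.trans ?_
    have h2 : J0 ≤ 10 * K1 := hcase
    rw [hK1e, hMκ] at h2
    show J0 ≤ _
    linarith only [hX0, hMκ, hδX, hα0, hLδ, hK1e, hcase]
  · have hJpos : 0 < J0 := by linarith only [hLδ, hK1e, hMκ0, hcase]
    obtain ⟨c', hc', hsbR, hIP⟩ := boot_core2 (thK n) (thR' n) (thT' n) (thCo n) (thRv n)
      (thU' n) (thDn' n) (thP n) (K1 := K1) (M := M) (D := D) (X := X) (x := x) hρ hprob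
      hcs hδ hδκ rfl rfl (fun ρ hρI => hDBS ρ ⟨hρI.1, hρI.2.trans (by linarith only [])⟩) hσ hN
      hN1 hX0 hXJ hx hM0 hMJ rfl hVpos hdn hup hJpos hK10 hcase.le hG1
    set Rσ : Fin n → (Fin n → ℝ) → ℝ := fun i => UL (mu ρ0) (2 * δ) σ
      (PH (3 * δ - 2 * δ) (sN (UL (mu ρ0) (2 * δ) (3 * δ) (PH (σ - 2 * δ) N)) i)) with hRσ
    have hs0 : 0 < 2 * δ := by linarith
    have hφ : ∀ i, SB (sN (UL (mu ρ0) (2 * δ) (3 * δ) (PH (σ - 2 * δ) N)) i) := fun i =>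
      hU1.div (hU1.sb.pd i)
    -- transport of the predictability of the top score
    have hP1 : Pred γ g (mu ρ0) (2 * δ) (PH (σ - 2 * δ) N)
        (fun i => PH (3 * δ - 2 * δ) (sN (UL (mu ρ0) (2 * δ) (3 * δ) (PH (σ - 2 * δ) N)) i)) x
        K1 :=
      (thT (x := x) (X := K1) hg hcs hVpos hs0 hsr).2.2.1 _ hφ hG1'
    have hP2 : Pred γ g (mu ρ0) σ N Rσ x K1 :=
      (thT (x := x) (X := K1) hg hcs hN hs0 hσ.1).2.2.2 _ (fun i => PH_sb (hφ i) _) hP1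
    intro l hl hI
    have hsbR' : ∀ i, SB (Rσ i) := hsbR
    have k1 := Co_comb (μ := mu ρ0) (r := σ) (φ := Rσ) hg hN hsbR'
      (ψ := fun i y => -c' * Rσ i y + 1 * sN N i y) (fun i =>
        ((hsbR' i).const_mul _).add ((hsbN i).const_mul _)) hl c' 1
    have e2 : (fun i y => c' * Rσ i y + 1 * (-c' * Rσ i y + 1 * sN N i y)) = sN N := by
      funext i y
      ring
    have k1' : Co γ (mu ρ0) σ N (sN N) l ≤ 2 * c' ^ 2 * Co γ (mu ρ0) σ N Rσ l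
        + 2 * 1 ^ 2 * Co γ (mu ρ0) σ N (fun i y => -c' * Rσ i y + 1 * sN N i y) l := by
      have e3 := congrArg (fun f => Co γ (mu ρ0) σ N f l) e2
      exact e3.symm.le.trans k1
    have k2 := Co_le (μ := mu ρ0) (r := σ) (φ := fun i y => -c' * Rσ i y + 1 * sN N i y) hg hN
      (fun i => ((hsbR i).const_mul _).add ((hsbN i).const_mul _)) hl
    have k3 : Co γ (mu ρ0) σ N (fun i y => -c' * Rσ i y + 1 * sN N i y) l
        ≤ 10 * ((δ / (2 * κ) * K1 + M / κ) + 11 / 10 * (M / κ)) := k2.trans hIP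
    have k6 : Co γ (mu ρ0) σ N Rσ l ≤ K1 := hP2 l hl hI
    have k7 : 0 ≤ Co γ (mu ρ0) σ N Rσ l := Co_nonneg hN hl
    have k8 : 2 * c' ^ 2 * Co γ (mu ρ0) σ N Rσ l ≤ 4 * K1 := by
      have h1 : c' ^ 2 * Co γ (mu ρ0) σ N Rσ l ≤ 2 * K1 :=
        mul_le_mul hc' k6 k7 (by norm_num)
      linarith only [h1]
    have hE1a : δ / (2 * κ) * K1 ≤ 1 / 4000 * K1 := by
      have e1 : δ / (2 * κ) = 1 / 2 * (δ / κ) := by (clear * - hκ hδ; field_simp)
      rw [e1]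
      exact mul_le_mul_of_nonneg_right (by linarith only [hδκ']) hK10
    have k9 : Co γ (mu ρ0) σ N (sN N) l ≤ 41 / 10 * K1 + 42 * (M / κ) := by
      linarith only [k1', k3, k8, hE1a, hK10]
    refine k9.trans ?_
    rw [hK1e, hMκ]
    linarith only [hX0, hδX, hα0, hLδ]

/-- the bootstrap iterated: **the score of a near-maximiser is hidden from every channel** -/
theorem predG [IsProbabilityMeasure γ] (hg : Out γ g) {ρ0 : (Fin n → ℝ) → ℝ} {R A : ℝ}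
    (hρ : LCd ρ0) (hprob : IsProbabilityMeasure (mu ρ0)) (hcs : CSupp (mu ρ0) R) (hA1 : 1 ≤ A)
    (hexp : ExpM (mu ρ0) A) {N : (Fin n → ℝ) → ℝ} {δ κ σ α x D : ℝ} (hδ : 0 < δ)
    (hδκ : 2000 * δ ≤ κ) (hDBS : DBS (mu ρ0) (2 * δ) δ κ D) (hσ : σ ∈ Icc (2 * δ) (3 * δ))
    (hN : Pos N) (hN1 : EY (mu ρ0) σ N = 1) (hα : 0 ≤ α)
    (hαJ : 10 ^ 4 * α ≤ κ * LS.FI (mu ρ0) σ N)
    (hnear : D - α ≤ LS.HE (mu ρ0) σ N - κ * LS.FI (mu ρ0) σ N)
    (hx : 2 * δ * LS.FI (mu ρ0) σ N ≤ x) :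
    Pred γ g (mu ρ0) σ N (sN N) x
      (800 / δ ^ 2 * (LS.HE (mu ρ0) σ N + x + log A) + 4000 * α / κ) := by
  have := hprob
  have hκ : 0 < κ := by linarith only [hδ, hδκ]
  set F := LS.FI (mu ρ0) σ N with hF
  set A0 : ℝ := 400 / δ ^ 2 * (LS.HE (mu ρ0) σ N + x + log A) + 2000 * α / κ with hA0
  have hsbN : ∀ i, SB (sN N i) := fun i => hN.div (hN.sb.pd i)
  have hFI : F = E1.IP (mu ρ0) σ N (sN N) (sN N) := (FI_eq_IP (mu ρ0) σ hN)
  have hF0 : 0 ≤ F := by rw [hFI]; exact E1.IP_self_nonneg hN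
  have hx0 : 0 ≤ x := (by positivity : 0 ≤ 2 * δ * F).trans hx
  have hH0 : 0 ≤ LS.HE (mu ρ0) σ N := HE_nonneg' hN hN1
  have hlA : 0 ≤ log A := log_nonneg hA1
  have hA00 : 0 ≤ A0 := by
    have : 0 ≤ LS.HE (mu ρ0) σ N + x + log A := by linarith
    positivity
  have hB := boot_of n (thK n) (thR' n) (thT' n) (thCo n) (thRv n) (thG0' n) (thU' n) (thDn' n)
    (thP n) (thPathA' n)
  have hch' := (thCo n (mu ρ0) σ N hN).2.2 hN1
  have hPred0 : E1.Pred (mu ρ0) σ N (sN N) x F := by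
    intro l hl _
    have h1 := ((hch' l hl).2 (sN N) hsbN).2.1
    rwa [← hFI] at h1
  have hstep : ∀ X, 0 ≤ X → X ≤ F → E1.Pred (mu ρ0) σ N (sN N) x X →
      E1.Pred (mu ρ0) σ N (sN N) x (A0 + X / 2) := fun X hX0 hXF hPX =>
    hB ρ0 R A hρ hprob hcs hA1 hexp N δ κ σ α x X D hδ hδκ hDBS hσ hN hN1 hα hαJ hnear hx hX0
      hXF hPX
  have hclose : E1.Pred (mu ρ0) σ N (sN N) x (2 * A0) := by
    have key := contraction_close
      (ι := {l : (Fin n → ℝ) → (Fin n → ℝ) → ℝ // E1.Ch l ∧ E1.Inf (mu ρ0) σ N l ≤ x})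
      (P := fun l => E1.Co (mu ρ0) σ N (sN N) l.1) (A := A0) (N0 := F)
      (fun l => hPred0 l.1 l.2.1 l.2.2) hF0
      (fun X hX0 hX l => by
        rcases le_total X F with hXF | hXF
        · exact hstep X hX0 hXF (fun l' hl' hI' => hX ⟨l', hl', hI'⟩) l.1 l.2.1 l.2.2
        · have h1 := hstep F hF0 le_rfl hPred0 l.1 l.2.1 l.2.2
          linarith only [hXF, h1])
      hA00
    intro l hl hI
    exact key ⟨l, hl, hI⟩
  have hmin : E1.Pred (mu ρ0) σ N (sN N) x (min (2 * A0) F) := fun l hl hI =>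
    le_min (hclose l hl hI) (hPred0 l hl hI)
  have hfin := bootG hg hρ hprob hcs hA1 hexp hδ hδκ hDBS hσ hN hN1 hα hαJ hnear hx
    (le_min (by linarith) hF0) (min_le_right _ _) hmin
  intro l hl hI
  have h1 := hfin l hl hI
  have h2 := min_le_left (2 * A0) F
  have e1 : 400 / δ ^ 2 * (LS.HE (mu ρ0) σ N + x + log A) + 2000 * α / κ = A0 := rfl
  rw [e1] at h1
  have e2 : 800 / δ ^ 2 * (LS.HE (mu ρ0) σ N + x + log A) + 4000 * α / κ = 2 * A0 := by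
    rw [hA0]; ring
  rw [e2]
  linarith only [h1, h2]

end Vale.Agent.P245.H468
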