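import Vale.Agent.P245.H468.ChT

/-! # P245 (helper468): smooth channels, entropy and Fisher information of the posteriors

For a smooth channel `l` (output space arbitrary): the averaged entropy of the posteriors is
`HE + Inf`, the averaged Fisher information is `FI + JF`, and a (defective) log-Sobolev
inequality `DBL μ r κ D` gives `HE + Inf ≤ κ (FI + JF) + D`. -/

open MeasureTheory Real Set Filter Topology
open scoped ENNReal ContDiff

namespace Vale.Agent.P245.H468

open LS E1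

variable {n : ℕ} {W : Type*} [MeasurableSpace W] {γ : Measure W} {g : W → ℝ}

/-- smooth channels -/
structure SCh (γ : Measure W) (g : W → ℝ) (l : W → (Fin n → ℝ) → ℝ) : Prop where
  ch : Ch γ g l
  pos : ∀ w, Pos (l w)
  pdm : ∀ i, Measurable (Function.uncurry fun (w : W) (y : Fin n → ℝ) => pd (l w) i y)
  pdb : ∃ K, 0 ≤ K ∧ ∀ w y i, |pd (l w) i y| ≤ exp (K * g w)

/-- the Fisher information of the channel, `E |∇_y log l(W, y)|²` -/
noncomputable def JF (γ : Measure W) (μ : Measure (Fin n → ℝ)) (r : ℝ) (N : (Fin n → ℝ) → ℝ)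
    (l : W → (Fin n → ℝ) → ℝ) : ℝ :=
  ∫ w, EY μ r (fun y => N y * ((∑ i, pd (l w) i y ^ 2) / l w y)) ∂γ

/-! ### Fubini for functions of the output and the state -/

section fub

variable {P : Measure (Fin n → ℝ)} [IsProbabilityMeasure P] [IsProbabilityMeasure γ]
  {F : W → (Fin n → ℝ) → ℝ} {C K : ℝ}

theorem int_prod_of_bd (hg : Out γ g) (hm : Measurable (Function.uncurry F))
    (hb : ∀ w y, |F w y| ≤ C * exp (K * g w)) : Integrable (Function.uncurry F) (γ.prod P) := by
  have h2 : Integrable (fun q : W × (Fin n → ℝ) => C * exp (K * g q.1)) (γ.prod P) :=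
    ((hg.int K).comp_fst P).const_mul C
  refine h2.mono' hm.aestronglyMeasurable (Eventually.of_forall fun q => ?_)
  rw [norm_eq_abs]
  exact hb q.1 q.2

theorem int_out_of_bd (hg : Out γ g) (hm : Measurable (Function.uncurry F))
    (hb : ∀ w y, |F w y| ≤ C * exp (K * g w)) : Integrable (fun w => ∫ y, F w y ∂P) γ :=
  (int_prod_of_bd (P := P) hg hm hb).integral_prod_left

theorem int_in_of_bd (hg : Out γ g) (hm : Measurable (Function.uncurry F))
    (hb : ∀ w y, |F w y| ≤ C * exp (K * g w)) (y : Fin n → ℝ) : Integrable (fun w => F w y) γ := by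
  refine ((hg.int K).const_mul C).mono' ?_ (Eventually.of_forall fun w => ?_)
  · exact (hm.comp (measurable_id.prodMk measurable_const)).aestronglyMeasurable
  · rw [norm_eq_abs]
    exact hb w y

theorem swap_of_bd (hg : Out γ g) (hm : Measurable (Function.uncurry F))
    (hb : ∀ w y, |F w y| ≤ C * exp (K * g w)) :
    ∫ w, ∫ y, F w y ∂P ∂γ = ∫ y, ∫ w, F w y ∂γ ∂P :=
  integral_integral_swap (int_prod_of_bd (P := P) hg hm hb)

end fub

theorem Out.exp_mono {K K' : ℝ} (hg : Out γ g) (h : K ≤ K') (w : W) :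
    exp (K * g w) ≤ exp (K' * g w) :=
  exp_le_exp.2 (mul_le_mul_of_nonneg_right h (hg.pos w).le)

/-- the derivative of the total mass vanishes -/
theorem SCh.pd_zero [IsProbabilityMeasure γ] (hg : Out γ g) {l : W → (Fin n → ℝ) → ℝ}
    (hl : SCh γ g l) (i : Fin n) (y : Fin n → ℝ) : ∫ w, pd (l w) i y ∂γ = 0 := by
  obtain ⟨K, hK0, hK⟩ := hl.pdb
  have hd : ∀ w (t : ℝ), HasDerivAt (fun t : ℝ => l w (y + t • Pi.single i 1))
      (pd (l w) i (y + t • Pi.single i 1)) t := by
    intro w t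
    have h1 : HasFDerivAt (l w) (fderiv ℝ (l w) (y + t • Pi.single i 1))
        (y + t • Pi.single i 1) :=
      ((hl.pos w).sb.differentiable _).hasFDerivAt
    have h2 : HasDerivAt (fun t : ℝ => y + t • (Pi.single i 1 : Fin n → ℝ))
        (Pi.single i 1) t := by
      have := ((hasDerivAt_id t).smul_const (Pi.single i 1 : Fin n → ℝ)).const_add y
      simpa using this
    exact h1.comp_hasDerivAt t h2
  have hmeas : ∀ t : ℝ, AEStronglyMeasurable (fun w => l w (y + t • Pi.single i 1)) γ := fun t =>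
    (hl.ch.meas.comp (measurable_id.prodMk measurable_const)).aestronglyMeasurable
  have hpm : ∀ y' : Fin n → ℝ, AEStronglyMeasurable (fun w => pd (l w) i y') γ := fun y' => by
    have hm : Measurable fun w : W => pd (l w) i y' :=
      (hl.pdm i).comp (measurable_id.prodMk measurable_const)
    exact hm.aestronglyMeasurable
  have key := hasDerivAt_integral_of_dominated_loc_of_deriv_le (μ := γ) (𝕜 := ℝ)
    (F := fun t w => l w (y + t • Pi.single i 1))
    (F' := fun t w => pd (l w) i (y + t • Pi.single i 1)) (x₀ := (0 : ℝ))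
    (s := Set.univ) (bound := fun w => exp (K * g w)) univ_mem
    (Eventually.of_forall fun t => hmeas t)
    (by
      obtain ⟨K', hK0', hK'⟩ := hl.ch.bd
      refine (hg.int K').mono' (hmeas 0) (Eventually.of_forall fun w => ?_)
      rw [norm_eq_abs, abs_of_pos (hl.ch.pos _ _)]
      exact (hK' _ _).2)
    (hpm _)
    (Eventually.of_forall fun w t _ => by rw [norm_eq_abs]; exact hK _ _ _) (hg.int K)
    (Eventually.of_forall fun w t _ => hd w t)
  have h1 : (fun t : ℝ => ∫ w, l w (y + t • Pi.single i 1) ∂γ) = fun _ => (1 : ℝ) := by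
    funext t
    exact hl.ch.one _
  have h2 := key.2
  rw [h1] at h2
  have h3 := h2.unique (hasDerivAt_const (0 : ℝ) (1 : ℝ))
  simpa using h3

section avg

variable {μ : Measure (Fin n → ℝ)} [IsProbabilityMeasure μ] {r : ℝ} {N : (Fin n → ℝ) → ℝ}
  {l : W → (Fin n → ℝ) → ℝ}

theorem Pos.N_l (hN : Pos N) (hl : SCh γ g l) (w : W) : Pos fun y => N y * l w y :=
  hN.mul (hl.pos w)

/-- the posterior density -/
noncomputable def pst (μ : Measure (Fin n → ℝ)) (r : ℝ) (N : (Fin n → ℝ) → ℝ)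
    (l : W → (Fin n → ℝ) → ℝ) (w : W) (y : Fin n → ℝ) : ℝ :=
  (ms μ r N l w)⁻¹ * (N y * l w y)

theorem pst_pos (hN : Pos N) (hl : SCh γ g l) (w : W) : Pos (pst μ r N l w) :=
  (hN.mul (hl.pos w)).const_mul (inv_pos.2 (ms_pos hN hl.ch w))

theorem pst_one (hN : Pos N) (hl : SCh γ g l) (w : W) : EY μ r (pst μ r N l w) = 1 := by
  unfold pst
  rw [EY_const_mul]
  exact inv_mul_cancel₀ (ms_pos hN hl.ch w).ne'

/-- entropy of the posterior -/
theorem pst_HE (hN : Pos N) (hl : SCh γ g l) (w : W) :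
    ms μ r N l w * HE μ r (pst μ r N l w)
      = EY μ r (fun y => (N y * log (N y)) * l w y)
        + ((EY μ r fun y => N y * (l w y * log (l w y))) - ms μ r N l w * log (ms μ r N l w)) := by
  have hp := ms_pos (μ := μ) (r := r) hN hl.ch w
  set p := ms μ r N l w with hpd
  have hNl := hN.mul (hl.pos w)
  have e : ∀ y, pst μ r N l w y * log (pst μ r N l w y)
      = p⁻¹ * ((N y * log (N y)) * l w y + N y * (l w y * log (l w y)) + (-log p) * (N y * l w y)) := by
    intro y
    have hy := hN.pos y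
    have hly := (hl.pos w).pos y
    unfold pst
    rw [← hpd, log_mul (inv_pos.2 hp).ne' (mul_pos hy hly).ne', log_inv, log_mul hy.ne' hly.ne']
    ring
  have s1 : SB fun y => (N y * log (N y)) * l w y := (hN.sb.mul hN.log).mul (hl.pos w).sb
  have s2 : SB fun y => N y * (l w y * log (l w y)) :=
    hN.sb.mul ((hl.pos w).sb.mul (hl.pos w).log)
  have s3 : SB fun y => (-log p) * (N y * l w y) := hNl.sb.const_mul _
  have h1 : HE μ r (pst μ r N l w) = p⁻¹ * (EY μ r (fun y => (N y * log (N y)) * l w y)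
      + EY μ r (fun y => N y * (l w y * log (l w y))) + (-log p) * p) := by
    unfold HE
    have e2 : (fun y => pst μ r N l w y * log (pst μ r N l w y)) = fun y =>
        p⁻¹ * ((N y * log (N y)) * l w y + N y * (l w y * log (l w y))
          + (-log p) * (N y * l w y)) := funext e
    rw [e2, EY_const_mul, EY_add μ r (s1.add s2) s3, EY_add μ r s1 s2, EY_const_mul]
    rfl
  rw [h1, mul_inv_cancel_left₀ hp.ne']
  ring

/-- Fisher information of the posterior -/
theorem pst_FI (hN : Pos N) (hl : SCh γ g l) (w : W) :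
    ms μ r N l w * FI μ r (pst μ r N l w)
      = EY μ r (fun y => ((∑ i, pd N i y ^ 2) / N y) * l w y)
        + 2 * EY μ r (fun y => ∑ i, pd N i y * pd (l w) i y)
        + EY μ r (fun y => N y * ((∑ i, pd (l w) i y ^ 2) / l w y)) := by
  have hp := ms_pos (μ := μ) (r := r) hN hl.ch w
  set p := ms μ r N l w with hpd
  have hlw := hl.pos w
  have e0 : ∀ i y, pd (pst μ r N l w) i y = p⁻¹ * (pd N i y * l w y + N y * pd (l w) i y) := by
    intro i y
    have h1 : HasFDerivAt (fun y => N y * l w y)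
        (N y • fderiv ℝ (l w) y + l w y • fderiv ℝ N y) y :=
      ((hN.sb.differentiable y).hasFDerivAt).mul ((hlw.sb.differentiable y).hasFDerivAt)
    have h2 : HasFDerivAt (pst μ r N l w)
        (p⁻¹ • (N y • fderiv ℝ (l w) y + l w y • fderiv ℝ N y)) y := h1.const_mul p⁻¹
    unfold pd
    rw [h2.fderiv]
    simp only [_root_.smul_apply, _root_.add_apply, smul_eq_mul]
    ring
  have e : ∀ y, (∑ i, pd (pst μ r N l w) i y ^ 2) / pst μ r N l w y
      = p⁻¹ * (((∑ i, pd N i y ^ 2) / N y) * l w y + 2 * (∑ i, pd N i y * pd (l w) i y)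
        + N y * ((∑ i, pd (l w) i y ^ 2) / l w y)) := by
    intro y
    have hy := (hN.pos y).ne'
    have hly := (hlw.pos y).ne'
    have e1 : ∑ i, pd (pst μ r N l w) i y ^ 2 = p⁻¹ ^ 2 * (l w y ^ 2 * ∑ i, pd N i y ^ 2
        + 2 * (N y * l w y) * ∑ i, pd N i y * pd (l w) i y + N y ^ 2 * ∑ i, pd (l w) i y ^ 2) := by
      simp only [Finset.mul_sum, ← Finset.sum_add_distrib]
      refine Finset.sum_congr rfl fun i _ => ?_
      rw [e0]
      ring
    rw [e1]
    unfold pst
    rw [← hpd]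
    field_simp
  have s1 : SB fun y => ((∑ i, pd N i y ^ 2) / N y) * l w y :=
    (hN.div (SB.sum _ fun i _ => (hN.sb.pd i).pow 2)).mul hlw.sb
  have s2 : SB fun y => ∑ i, pd N i y * pd (l w) i y :=
    SB.sum _ fun i _ => (hN.sb.pd i).mul (hlw.sb.pd i)
  have s3 : SB fun y => N y * ((∑ i, pd (l w) i y ^ 2) / l w y) :=
    hN.sb.mul (hlw.div (SB.sum _ fun i _ => (hlw.sb.pd i).pow 2))
  have h1 : FI μ r (pst μ r N l w) = p⁻¹ * (EY μ r (fun y => ((∑ i, pd N i y ^ 2) / N y) * l w y)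
      + 2 * EY μ r (fun y => ∑ i, pd N i y * pd (l w) i y)
      + EY μ r (fun y => N y * ((∑ i, pd (l w) i y ^ 2) / l w y))) := by
    unfold FI
    have e2 : (fun y => (∑ i, pd (pst μ r N l w) i y ^ 2) / pst μ r N l w y) = fun y =>
        p⁻¹ * (((∑ i, pd N i y ^ 2) / N y) * l w y + 2 * (∑ i, pd N i y * pd (l w) i y)
        + N y * ((∑ i, pd (l w) i y ^ 2) / l w y)) := funext e
    rw [e2, EY_const_mul, EY_add μ r (s1.add (s2.const_mul 2)) s3,
      EY_add μ r s1 (s2.const_mul 2), EY_const_mul μ r 2]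
  rw [h1, mul_inv_cancel_left₀ hp.ne']

variable [IsProbabilityMeasure γ]

/-- the averages over the output -/
theorem avg_id (hg : Out γ g) (hN : Pos N) (hl : SCh γ g l) {Ψ : (Fin n → ℝ) → ℝ} (hΨ : SB Ψ) :
    Integrable (fun w => EY μ r (fun y => Ψ y * l w y)) γ ∧
    ∫ w, EY μ r (fun y => Ψ y * l w y) ∂γ = EY μ r Ψ := by
  obtain ⟨C, hC⟩ := hΨ.bdd
  have e : (fun w => EY μ r (fun y => Ψ y * l w y)) = fun w => ∫ y, Ψ y * l w y ∂(lw μ r) := by
    funext w
    exact EY_ch hl.ch hΨ w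
  rw [e, EY_eq_lw_sb μ r hΨ]
  exact ⟨hl.ch.int_out hg hΨ.measurable hC, hl.ch.fubini hg hΨ.measurable hC⟩

theorem ms_avg (hg : Out γ g) (hN : Pos N) (hl : SCh γ g l) :
    Integrable (fun w => ms μ r N l w) γ ∧ ∫ w, ms μ r N l w ∂γ = EY μ r N :=
  avg_id hg hN hl hN.sb

/-- bound for the cross term -/
theorem cross_bd (hN : Pos N) (hl : SCh γ g l) : ∃ C K, ∀ w y,
    |∑ i, pd N i y * pd (l w) i y| ≤ C * exp (K * g w) := by
  obtain ⟨K, hK0, hK⟩ := hl.pdb
  have h : ∀ i, ∃ C, 0 ≤ C ∧ ∀ y, |pd N i y| ≤ C := fun i => (hN.sb.pd i).bdd'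
  choose C hC0 hC using h
  refine ⟨∑ i, C i, K, fun w y => ?_⟩
  rw [Finset.sum_mul]
  refine (Finset.abs_sum_le_sum_abs _ _).trans (Finset.sum_le_sum fun i _ => ?_)
  exact abs_mul_le_of (hC i y) (hK w y i)

theorem cross_avg (hg : Out γ g) (hN : Pos N) (hl : SCh γ g l) :
    Integrable (fun w => EY μ r (fun y => ∑ i, pd N i y * pd (l w) i y)) γ ∧
    ∫ w, EY μ r (fun y => ∑ i, pd N i y * pd (l w) i y) ∂γ = 0 := by
  obtain ⟨C, K, hb⟩ := cross_bd (γ := γ) hN hl
  have hm : Measurable (Function.uncurry fun (w : W) (y : Fin n → ℝ) =>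
      ∑ i, pd N i y * pd (l w) i y) :=
    Finset.measurable_sum _ fun i _ => ((hN.sb.pd i).measurable.comp measurable_snd).mul (hl.pdm i)
  have e : (fun w => EY μ r (fun y => ∑ i, pd N i y * pd (l w) i y))
      = fun w => ∫ y, ∑ i, pd N i y * pd (l w) i y ∂(lw μ r) := by
    funext w
    exact EY_eq_lw_sb μ r (SB.sum _ fun i _ => (hN.sb.pd i).mul ((hl.pos w).sb.pd i))
  rw [e]
  refine ⟨int_out_of_bd hg hm hb, ?_⟩
  rw [swap_of_bd (P := lw μ r) hg hm hb]
  have e2 : ∀ y, ∫ w, ∑ i, pd N i y * pd (l w) i y ∂γ = 0 := by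
    intro y
    obtain ⟨K', hK0, hK'⟩ := hl.pdb
    rw [integral_finsetSum]
    · refine Finset.sum_eq_zero fun i _ => ?_
      rw [integral_const_mul, hl.pd_zero hg, mul_zero]
    · intro i _
      refine Integrable.const_mul ?_ _
      refine (hg.int K').mono' ?_ (Eventually.of_forall fun w => ?_)
      · exact ((hl.pdm i).comp (measurable_id.prodMk measurable_const)).aestronglyMeasurable
      · rw [norm_eq_abs]
        exact hK' w y i
  simp_rw [e2]
  simp

theorem JF_bd (hg : Out γ g) (hN : Pos N) (hl : SCh γ g l) : ∃ C K, ∀ w y,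
    |N y * ((∑ i, pd (l w) i y ^ 2) / l w y)| ≤ C * exp (K * g w) := by
  obtain ⟨K, hK0, hK⟩ := hl.pdb
  obtain ⟨K', hK0', hK'⟩ := hl.ch.bd
  obtain ⟨C, hC0, hC⟩ := hN.sb.bdd'
  refine ⟨C * n, 2 * K + K', fun w y => ?_⟩
  have hl0 := hl.ch.pos w y
  have h1 : ∑ i, pd (l w) i y ^ 2 ≤ n * exp (2 * K * g w) := by
    calc ∑ i, pd (l w) i y ^ 2 ≤ ∑ _i : Fin n, exp (2 * K * g w) := by
          apply Finset.sum_le_sum
          intro i _
          have h2 := pow_le_pow_left₀ (abs_nonneg _) (hK w y i) 2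
          rw [sq_abs] at h2
          refine h2.trans (le_of_eq ?_)
          rw [← exp_nat_mul]
          congr 1
          push_cast
          ring
      _ = _ := by simp only [Finset.sum_const, Finset.card_univ, Fintype.card_fin, nsmul_eq_mul]
  have h0 : 0 ≤ ∑ i, pd (l w) i y ^ 2 := Finset.sum_nonneg fun i _ => sq_nonneg _
  have h2 : (∑ i, pd (l w) i y ^ 2) / l w y ≤ n * exp (2 * K * g w) * exp (K' * g w) := by
    rw [div_le_iff₀ hl0]
    have h3 : 1 ≤ exp (K' * g w) * l w y := by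
      calc (1 : ℝ) = exp (K' * g w) * exp (-(K' * g w)) := by
            rw [← exp_add]; simp
        _ ≤ _ := mul_le_mul_of_nonneg_left (hK' w y).1 (exp_pos _).le
    have h4 : 0 ≤ (n : ℝ) * exp (2 * K * g w) := by positivity
    calc ∑ i, pd (l w) i y ^ 2 ≤ n * exp (2 * K * g w) * 1 := by rw [mul_one]; exact h1
      _ ≤ n * exp (2 * K * g w) * (exp (K' * g w) * l w y) := mul_le_mul_of_nonneg_left h3 h4
      _ = _ := by ring
  rw [abs_mul, abs_of_nonneg (div_nonneg h0 hl0.le)]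
  calc |N y| * ((∑ i, pd (l w) i y ^ 2) / l w y)
      ≤ C * (n * exp (2 * K * g w) * exp (K' * g w)) :=
        mul_le_mul (hC y) h2 (div_nonneg h0 hl0.le) hC0
    _ = _ := by
        rw [mul_assoc (n : ℝ), ← exp_add, ← mul_assoc]
        congr 2
        ring

theorem JF_meas (hN : Pos N) (hl : SCh γ g l) :
    Measurable (Function.uncurry fun (w : W) (y : Fin n → ℝ) =>
      N y * ((∑ i, pd (l w) i y ^ 2) / l w y)) :=
  (hN.sb.measurable.comp measurable_snd).mul
    ((Finset.measurable_sum _ fun i _ => (hl.pdm i).pow_const 2).div hl.ch.meas)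

theorem JF_sb (hN : Pos N) (hl : SCh γ g l) (w : W) :
    SB fun y => N y * ((∑ i, pd (l w) i y ^ 2) / l w y) :=
  hN.sb.mul ((hl.pos w).div (SB.sum _ fun i _ => ((hl.pos w).sb.pd i).pow 2))

theorem JF_integrable (hg : Out γ g) (hN : Pos N) (hl : SCh γ g l) :
    Integrable (fun w => EY μ r (fun y => N y * ((∑ i, pd (l w) i y ^ 2) / l w y))) γ := by
  obtain ⟨C, K, hb⟩ := JF_bd (γ := γ) hg hN hl
  have e : (fun w => EY μ r (fun y => N y * ((∑ i, pd (l w) i y ^ 2) / l w y)))
      = fun w => ∫ y, N y * ((∑ i, pd (l w) i y ^ 2) / l w y) ∂(lw μ r) := by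
    funext w
    exact EY_eq_lw_sb μ r (JF_sb hN hl w)
  rw [e]
  exact int_out_of_bd hg (JF_meas hN hl) hb

omit [IsProbabilityMeasure γ] [IsProbabilityMeasure μ] in
theorem JF_nonneg (hN : Pos N) (hl : SCh γ g l) : 0 ≤ JF γ μ r N l :=
  integral_nonneg fun w => EY_nonneg μ r fun y => mul_nonneg (hN.pos y).le
    (div_nonneg (Finset.sum_nonneg fun _ _ => sq_nonneg _) (hl.ch.pos w y).le)

/-- averaged entropy of the posteriors -/
theorem avg_HE (hg : Out γ g) (hN : Pos N) (hl : SCh γ g l) :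
    Integrable (fun w => ms μ r N l w * HE μ r (pst μ r N l w)) γ ∧
    ∫ w, ms μ r N l w * HE μ r (pst μ r N l w) ∂γ = HE μ r N + Inf γ μ r N l := by
  have h1 := avg_id (μ := μ) (r := r) hg hN hl (hN.sb.mul hN.log)
  have h2 := Inf_integrable (μ := μ) (r := r) hg hN hl.ch
  simp_rw [pst_HE hN hl]
  refine ⟨h1.1.add h2, ?_⟩
  rw [integral_add h1.1 h2, h1.2]
  rfl

/-- averaged Fisher information of the posteriors -/
theorem avg_FI (hg : Out γ g) (hN : Pos N) (hl : SCh γ g l) :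
    Integrable (fun w => ms μ r N l w * FI μ r (pst μ r N l w)) γ ∧
    ∫ w, ms μ r N l w * FI μ r (pst μ r N l w) ∂γ = FI μ r N + JF γ μ r N l := by
  have h1 := avg_id (μ := μ) (r := r) hg hN hl
    (hN.div (SB.sum Finset.univ fun i _ => (hN.sb.pd i).pow 2))
  have h2 := cross_avg (μ := μ) (r := r) hg hN hl
  have h3 := JF_integrable (μ := μ) (r := r) hg hN hl
  simp_rw [pst_FI hN hl]
  have i2 : Integrable (fun w => 2 * EY μ r (fun y => ∑ i, pd N i y * pd (l w) i y)) γ :=
    h2.1.const_mul 2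
  refine ⟨(h1.1.add i2).add h3, ?_⟩
  have e1 : ∫ w, (EY μ r (fun y => ((∑ i, pd N i y ^ 2) / N y) * l w y)
        + 2 * EY μ r (fun y => ∑ i, pd N i y * pd (l w) i y)
        + EY μ r (fun y => N y * ((∑ i, pd (l w) i y ^ 2) / l w y))) ∂γ
      = ∫ w, (EY μ r (fun y => ((∑ i, pd N i y ^ 2) / N y) * l w y)
        + 2 * EY μ r (fun y => ∑ i, pd N i y * pd (l w) i y)) ∂γ
        + ∫ w, EY μ r (fun y => N y * ((∑ i, pd (l w) i y ^ 2) / l w y)) ∂γ :=
    integral_add (h1.1.add i2) h3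
  have e2 : ∫ w, (EY μ r (fun y => ((∑ i, pd N i y ^ 2) / N y) * l w y)
        + 2 * EY μ r (fun y => ∑ i, pd N i y * pd (l w) i y)) ∂γ
      = ∫ w, EY μ r (fun y => ((∑ i, pd N i y ^ 2) / N y) * l w y) ∂γ
        + ∫ w, 2 * EY μ r (fun y => ∑ i, pd N i y * pd (l w) i y) ∂γ :=
    integral_add h1.1 i2
  rw [e1, e2, integral_const_mul, h2.2, mul_zero, add_zero, h1.2]
  rfl

/-- **log-Sobolev inequality at the posteriors of a smooth channel** -/
theorem ch_lsi (hg : Out γ g) {κ D : ℝ} (hN : Pos N) (h1 : EY μ r N = 1) (hl : SCh γ g l)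
    (hD : DBL μ r κ D) : HE μ r N + Inf γ μ r N l ≤ κ * (FI μ r N + JF γ μ r N l) + D := by
  have a1 := avg_HE (μ := μ) (r := r) hg hN hl
  have a2 := avg_FI (μ := μ) (r := r) hg hN hl
  have a3 := ms_avg (μ := μ) (r := r) hg hN hl
  rw [h1] at a3
  rw [← a1.2, ← a2.2]
  have e : κ * (∫ w, ms μ r N l w * FI μ r (pst μ r N l w) ∂γ) + D
      = ∫ w, (κ * (ms μ r N l w * FI μ r (pst μ r N l w)) + D * ms μ r N l w) ∂γ := by
    rw [integral_add (a2.1.const_mul κ) (a3.1.const_mul D), integral_const_mul,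
      integral_const_mul, a3.2, mul_one]
  rw [e]
  refine integral_mono a1.1 ((a2.1.const_mul κ).add (a3.1.const_mul D)) fun w => ?_
  have hp := ms_pos (μ := μ) (r := r) hN hl.ch w
  have h2 := mul_le_mul_of_nonneg_left
    (hD _ (pst_pos (μ := μ) (r := r) hN hl w) (pst_one hN hl w)) hp.le
  show ms μ r N l w * HE μ r (pst μ r N l w)
    ≤ κ * (ms μ r N l w * FI μ r (pst μ r N l w)) + D * ms μ r N l w
  linarith only [h2]

end avg

end Vale.Agent.P245.H468
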