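import Vale.Agent.P245.H468.ChG
import Vale.Agent.P245.Bdl.B2

/-! # P245 (helper468): transport of channels with an arbitrary output space

Generalisation of the module `T` of `E1` (`Bdl/B1.lean`). -/

open MeasureTheory Real Set Filter Topology
open scoped ENNReal ContDiff

namespace Vale.Agent.P245.H468

open LS E1

variable {n : ℕ} {W : Type*} [MeasurableSpace W] {γ : Measure W} {g : W → ℝ}

/-- positive unital linear operators on bounded measurable functions, compatible with channels -/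
structure MO (γ : Measure W) (g : W → ℝ) (Λ : ((Fin n → ℝ) → ℝ) → (Fin n → ℝ) → ℝ) : Prop where
  bm : ∀ f, BM f → BM (Λ f)
  add : ∀ f g, BM f → BM g → ∀ y, Λ (fun y => f y + g y) y = Λ f y + Λ g y
  smul : ∀ (c : ℝ) f, BM f → ∀ y, Λ (fun y => c * f y) y = c * Λ f y
  one : ∀ y, Λ (fun _ => 1) y = 1
  mono : ∀ f g, BM f → BM g → (∀ y, f y ≤ g y) → ∀ y, Λ f y ≤ Λ g y
  jm : ∀ (G : (Fin n → ℝ) → ℝ) (l : W → (Fin n → ℝ) → ℝ), BM G → Ch γ g l →
    Measurable (Function.uncurry fun w y => Λ (fun y' => G y' * l w y') y)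
  fub : ∀ (G : (Fin n → ℝ) → ℝ) (l : W → (Fin n → ℝ) → ℝ), BM G → Ch γ g l →
    ∀ y, ∫ w, Λ (fun y' => G y' * l w y') y ∂γ = Λ G y

/-! ### the heat semigroup -/

theorem PH_jm {G : (Fin n → ℝ) → ℝ} {l : W → (Fin n → ℝ) → ℝ} (hG : BM G) (hl : Ch γ g l)
    (u : ℝ) : Measurable (Function.uncurry fun w y => PH u (fun y' => G y' * l w y') y) := by
  have h : Measurable (fun p : (W × (Fin n → ℝ)) × (Fin n → ℝ) =>
      G (p.1.2 + √u • p.2) * l p.1.1 (p.1.2 + √u • p.2)) :=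
    (hG.1.comp (by fun_prop)).mul (hl.meas.comp
      (Measurable.prodMk (by fun_prop) (by (clear * -; fun_prop)) :
        Measurable fun p : (W × (Fin n → ℝ)) × (Fin n → ℝ) =>
          (p.1.1, p.1.2 + √u • p.2)))
  exact (h.stronglyMeasurable.integral_prod_right' (ν := gsn n)).measurable

theorem PH_fub [IsProbabilityMeasure γ] (hg : Out γ g) {G : (Fin n → ℝ) → ℝ}
    {l : W → (Fin n → ℝ) → ℝ} (hG : BM G) (hl : Ch γ g l) (u : ℝ) (y : Fin n → ℝ) :
    ∫ w, PH u (fun y' => G y' * l w y') y ∂γ = PH u G y := by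
  obtain ⟨C, hC⟩ := hG.2
  have hm : Measurable fun z : Fin n → ℝ => y + √u • z := by fun_prop
  have hP : IsProbabilityMeasure ((gsn n).map fun z : Fin n → ℝ => y + √u • z) :=
    Measure.isProbabilityMeasure_map hm.aemeasurable
  have h := hl.fubini (P := (gsn n).map fun z : Fin n → ℝ => y + √u • z) hg hG.1 hC
  rw [integral_map hm.aemeasurable hG.1.aestronglyMeasurable] at h
  have e : ∀ w : W, ∫ z, G z * l w z ∂((gsn n).map fun z : Fin n → ℝ => y + √u • z)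
      = PH u (fun y' => G y' * l w y') y := fun w =>
    integral_map hm.aemeasurable (hG.1.mul (hl.meas_left w)).aestronglyMeasurable
  simp_rw [e] at h
  exact h

theorem MO_PH [IsProbabilityMeasure γ] (hg : Out γ g) (u : ℝ) : MO γ g (PH (n := n) u) where
  bm f hf := hf.ph u
  add f g hf hg y := by
    obtain ⟨C, hC⟩ := hf.2
    obtain ⟨D, hD⟩ := hg.2
    rw [PH_add hf.1 hC hg.1 hD]
  smul c f _ y := by rw [PH_const_mul]
  one y := by rw [PH_const]
  mono f g hf hg h y := by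
    obtain ⟨C, hC⟩ := hf.2
    obtain ⟨D, hD⟩ := hg.2
    exact PH_mono hf.1 hC hg.1 hD h u y
  jm G l hG hl := PH_jm hG hl u
  fub G l hG hl y := PH_fub hg hG hl u y

/-! ### the kernel `UL` -/

theorem PH_ch_le {G : (Fin n → ℝ) → ℝ} {l : W → (Fin n → ℝ) → ℝ} {C : ℝ}
    (hC : ∀ y, |G y| ≤ C) {K : ℝ}
    (hK : ∀ w y, exp (-(K * g w)) ≤ l w y ∧ l w y ≤ exp (K * g w))
    (u : ℝ) (w : W) (y : Fin n → ℝ) :
    |PH u (fun y' => G y' * l w y') y| ≤ C * exp (K * g w) := by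
  refine PH_abs_le (fun y' => abs_mul_le_of (hC y') ?_) u y
  rw [abs_of_pos ((exp_pos _).trans_le (hK w y').1)]
  exact (hK w y').2

section ul

variable {μ : Measure (Fin n → ℝ)} [IsProbabilityMeasure μ] {R : ℝ}

theorem UL_jm (h : CSupp μ R) {G : (Fin n → ℝ) → ℝ} {l : W → (Fin n → ℝ) → ℝ}
    (hG : BM G) (hl : Ch γ g l) (s r : ℝ) :
    Measurable (Function.uncurry fun w y => UL μ s r (fun y' => G y' * l w y') y) := by
  have h0 : Measurable (fun p : (W × (Fin n → ℝ)) × (Fin n → ℝ) =>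
      (p.1.1, (1 - s / r) • p.2 + (s / r) • p.1.2)) :=
    Measurable.prodMk (by fun_prop) (by (clear * -; fun_prop))
  have h1 : Measurable (fun p : (W × (Fin n → ℝ)) × (Fin n → ℝ) =>
      PH (s * (r - s) / r) (fun y' => G y' * l p.1.1 y') ((1 - s / r) • p.2 + (s / r) • p.1.2)
        * exp (lx p.2 (1 / r, (1 / r) • p.1.2))) := by
    apply ((PH_jm hG hl (s * (r - s) / r)).comp h0).mul
    apply Measurable.exp
    unfold lx
    simp only [Pi.smul_apply, smul_eq_mul]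
    fun_prop
  have h2 : Measurable (fun y : Fin n → ℝ => Zo μ (1 / r, (1 / r) • y)) :=
    ((contDiff_Zo h 0).continuous.comp (by fun_prop)).measurable
  exact (h1.stronglyMeasurable.integral_prod_right' (ν := μ)).measurable.div
    (h2.comp measurable_snd)

theorem UL_fub [IsProbabilityMeasure γ] (hg : Out γ g) (h : CSupp μ R) {G : (Fin n → ℝ) → ℝ}
    {l : W → (Fin n → ℝ) → ℝ} (hG : BM G) (hl : Ch γ g l) (s r : ℝ) (y : Fin n → ℝ) :
    ∫ w, UL μ s r (fun y' => G y' * l w y') y ∂γ = UL μ s r G y := by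
  obtain ⟨C, hC0, hC⟩ := hG.bdd'
  obtain ⟨K, hK0, hK⟩ := hl.bd
  unfold UL Mf Zf
  rw [integral_div]
  congr 1
  have hadm := h.adm_exp_lx (1 / r, (1 / r) • y)
  obtain ⟨E, hE0, hE⟩ := hadm.bdd
  have h0 : Measurable (fun p : W × (Fin n → ℝ) =>
      (p.1, (1 - s / r) • p.2 + (s / r) • y)) :=
    Measurable.prodMk (by fun_prop) (by (clear * -; fun_prop))
  have hm : Measurable (Function.uncurry fun (w : W) (x : Fin n → ℝ) =>
      PH (s * (r - s) / r) (fun y' => G y' * l w y') ((1 - s / r) • x + (s / r) • y)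
        * exp (lx x (1 / r, (1 / r) • y))) :=
    ((PH_jm hG hl (s * (r - s) / r)).comp h0).mul (hadm.meas.comp measurable_snd)
  have hint : Integrable (Function.uncurry fun (w : W) (x : Fin n → ℝ) =>
      PH (s * (r - s) / r) (fun y' => G y' * l w y') ((1 - s / r) • x + (s / r) • y)
        * exp (lx x (1 / r, (1 / r) • y))) (γ.prod μ) := by
    have h2 : Integrable (fun q : W × (Fin n → ℝ) => C * exp (K * g q.1) * E) (γ.prod μ) :=
      (((hg.int K).comp_fst μ).const_mul C).mul_const E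
    refine h2.mono' hm.aestronglyMeasurable ?_
    have hae : ∀ᵐ q ∂(γ.prod μ), |exp (lx q.2 (1 / r, (1 / r) • y))| ≤ E :=
      Measure.quasiMeasurePreserving_snd.ae hE
    filter_upwards [hae] with q hq
    rw [norm_eq_abs]
    exact abs_mul_le_of (PH_ch_le hC hK _ _ _) hq
  rw [integral_integral_swap hint]
  congr 1
  funext x
  rw [integral_mul_const, PH_fub hg hG hl]

theorem MO_UL [IsProbabilityMeasure γ] (hg : Out γ g) (h : CSupp μ R) {s r : ℝ} (hs : 0 < s)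
    (hsr : s ≤ r) : MO γ g (UL μ s r) := by
  obtain ⟨h1, h2, h3, h4, h5, h6⟩ := (thK n μ R h).1 s r hs hsr
  refine ⟨fun f hf => (h1 f hf).1, fun f g hf hg y => ?_, fun c f hf y => ?_, fun y => ?_, h5,
    fun G l hG hl => UL_jm h hG hl s r, fun G l hG hl y => UL_fub hg h hG hl s r y⟩
  · rw [h2 f g hf hg]
  · rw [h3 c f hf]
  · rw [h4 1]

end ul

/-! ### transport of channels -/

/-- the transported channel -/
noncomputable def tch (Λ : ((Fin n → ℝ) → ℝ) → (Fin n → ℝ) → ℝ) (G : (Fin n → ℝ) → ℝ)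
    (l : W → (Fin n → ℝ) → ℝ) (w : W) (y : Fin n → ℝ) : ℝ :=
  Λ (fun y' => G y' * l w y') y / Λ G y

section tr

variable {Λ : ((Fin n → ℝ) → ℝ) → (Fin n → ℝ) → ℝ} {G : (Fin n → ℝ) → ℝ}
  {l : W → (Fin n → ℝ) → ℝ}

theorem MO.cst (hΛ : MO γ g Λ) (c : ℝ) (y : Fin n → ℝ) : Λ (fun _ => c) y = c := by
  have h := hΛ.smul c (fun _ => 1) (BM.const 1) y
  simp only [mul_one] at h
  rw [h, hΛ.one, mul_one]

theorem MO.pos (hΛ : MO γ g Λ) (hG : BM G) (hG0 : ∃ ε, 0 < ε ∧ ∀ y, ε ≤ G y) (y : Fin n → ℝ) :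
    0 < Λ G y := by
  obtain ⟨ε, hε, h1⟩ := hG0
  have h2 := hΛ.mono (fun _ => ε) G (BM.const ε) hG h1 y
  rw [hΛ.cst] at h2
  exact hε.trans_le h2

theorem tch_mul (hΛ : MO γ g Λ) (hG : BM G) (hG0 : ∃ ε, 0 < ε ∧ ∀ y, ε ≤ G y) (w : W)
    (y : Fin n → ℝ) :
    Λ G y * tch Λ G l w y = Λ (fun y' => G y' * l w y') y := by
  unfold tch
  rw [mul_div_cancel₀ _ (hΛ.pos hG hG0 y).ne']

theorem Ch.tch (hΛ : MO γ g Λ) (hG : BM G) (hG0 : ∃ ε, 0 < ε ∧ ∀ y, ε ≤ G y) (hl : Ch γ g l) :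
    Ch γ g (tch Λ G l) := by
  have hG' : ∀ y, 0 ≤ G y := fun y => by
    obtain ⟨ε, hε, h1⟩ := hG0
    exact hε.le.trans (h1 y)
  refine ⟨(hΛ.jm G l hG hl).div ((hΛ.bm G hG).1.comp measurable_snd), ?_, fun y => ?_⟩
  · obtain ⟨K, hK0, hK⟩ := hl.bd
    refine ⟨K, hK0, fun w y => ?_⟩
    have hp := hΛ.pos hG hG0 y
    have hb := hG.mul (hl.bm w)
    unfold H468.tch
    rw [le_div_iff₀ hp, div_le_iff₀ hp]
    have hc : ∀ c : ℝ, BM fun y => c * G y := fun c => (BM.const c).mul hG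
    constructor
    · rw [← hΛ.smul _ G hG]
      apply hΛ.mono _ _ (hc _) hb
      intro y'
      rw [mul_comm]
      exact mul_le_mul_of_nonneg_left (hK w y').1 (hG' y')
    · rw [← hΛ.smul _ G hG]
      apply hΛ.mono _ _ hb (hc _)
      intro y'
      rw [mul_comm]
      exact mul_le_mul_of_nonneg_right (hK w y').2 (hG' y')
  · unfold H468.tch
    rw [integral_div, hΛ.fub G l hG hl, div_self (hΛ.pos hG hG0 y).ne']

/-- Jensen's inequality for the transported channel -/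
theorem tch_jensen (hΛ : MO γ g Λ) (hG : BM G) (hG0 : ∃ ε, 0 < ε ∧ ∀ y, ε ≤ G y)
    (hl : Ch γ g l) (w : W) (y : Fin n → ℝ) :
    Λ G y * (tch Λ G l w y * log (tch Λ G l w y))
      ≤ Λ (fun y' => G y' * (l w y' * log (l w y'))) y := by
  have hG' : ∀ y, 0 ≤ G y := fun y => by
    obtain ⟨ε, hε, h1⟩ := hG0
    exact hε.le.trans (h1 y)
  have hv : 0 < tch Λ G l w y := (Ch.tch hΛ hG hG0 hl).pos w y
  have hm := tch_mul (l := l) hΛ hG hG0 w y
  set v := tch Λ G l w y with hvdef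
  have hb := hG.mul (hl.bm w)
  have hb2 := hG.mul (hl.bm_log w)
  have hc1 : BM fun y => (v * log v - (1 + log v) * v) * G y := (BM.const _).mul hG
  have hc2 : BM fun y => (1 + log v) * (G y * l w y) := (BM.const _).mul hb
  have hs : BM fun y => (v * log v - (1 + log v) * v) * G y + (1 + log v) * (G y * l w y) := by
    obtain ⟨C, hC⟩ := hc1.2
    obtain ⟨D, hD⟩ := hc2.2
    exact ⟨hc1.1.add hc2.1, C + D, fun y => (abs_add_le _ _).trans (add_le_add (hC y) (hD y))⟩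
  have h := hΛ.mono _ _ hs hb2 (fun y' => by
    have h3 := mul_le_mul_of_nonneg_left (xlogx_tangent (hl.pos w y') hv) (hG' y')
    linarith) y
  rw [hΛ.add _ _ hc1 hc2, hΛ.smul _ G hG, hΛ.smul _ _ hb, ← hm] at h
  linarith only [h]

end tr

/-! ### transport of predictability -/

/-- comparison of a channel and its transport -/
theorem transport_ch [IsProbabilityMeasure γ] (hg : Out γ g) {μ : Measure (Fin n → ℝ)}
    [IsProbabilityMeasure μ] {a b : ℝ}
    {Λ Λs : ((Fin n → ℝ) → ℝ) → (Fin n → ℝ) → ℝ} (hΛ : MO γ g Λ)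
    (adj : ∀ f Φ : (Fin n → ℝ) → ℝ, BM f → BM Φ →
      EY μ a (fun y => Λ f y * Φ y) = EY μ b (fun y => f y * Λs Φ y))
    {G H Na Nb : (Fin n → ℝ) → ℝ} (hG : BM G) (hG0 : ∃ ε, 0 < ε ∧ ∀ y, ε ≤ G y) (hH : BM H)
    (hH0 : ∀ y, 0 ≤ H y) (hNa : Pos Na) (hNb : Pos Nb) (eNa : ∀ y, Na y = H y * Λ G y)
    (eNb : ∀ y, Nb y = G y * Λs H y) {l : W → (Fin n → ℝ) → ℝ} (hl : Ch γ g l) :
    Ch γ g (tch Λ G l) ∧ (∀ w, ms μ a Na (tch Λ G l) w = ms μ b Nb l w) ∧
    Inf γ μ a Na (tch Λ G l) ≤ Inf γ μ b Nb l ∧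
    ∀ {ι : Type} [Fintype ι] {φa φb : ι → (Fin n → ℝ) → ℝ} (_ : ∀ i, BM (φa i))
      (_ : ∀ i y, Λs (fun y => H y * φa i y) y = Λs H y * φb i y),
      Co γ μ a Na φa (tch Λ G l) = Co γ μ b Nb φb l := by
  have hl' := Ch.tch hΛ hG hG0 hl
  have key : ∀ ψ : (Fin n → ℝ) → ℝ, BM ψ → ∀ w,
      (EY μ a fun y => Na y * ψ y * tch Λ G l w y)
        = EY μ b fun y => (G y * l w y) * Λs (fun y => H y * ψ y) y := by
    intro ψ hψ w
    rw [← adj _ _ (hG.mul (hl.bm w)) (hH.mul hψ)]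
    congr 1
    funext y
    rw [eNa, ← tch_mul hΛ hG hG0 w y]
    ring
  have hms : ∀ w, ms μ a Na (tch Λ G l) w = ms μ b Nb l w := by
    intro w
    have h := key (fun _ => 1) (BM.const 1) w
    simp only [mul_one] at h
    unfold ms
    rw [h]
    congr 1
    funext y
    rw [eNb]
    ring
  refine ⟨hl', hms, ?_, ?_⟩
  · unfold Inf
    refine integral_mono (Inf_integrable hg hNa hl') (Inf_integrable hg hNb hl) fun w => ?_
    show (EY μ a fun y => Na y * (tch Λ G l w y * log (tch Λ G l w y)))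
      - ms μ a Na (tch Λ G l) w * log (ms μ a Na (tch Λ G l) w)
      ≤ (EY μ b fun y => Nb y * (l w y * log (l w y))) - ms μ b Nb l w * log (ms μ b Nb l w)
    rw [hms w]
    apply sub_le_sub_right
    have h1 : (EY μ b fun y => Nb y * (l w y * log (l w y)))
        = EY μ a fun y => Λ (fun y' => G y' * (l w y' * log (l w y'))) y * H y := by
      rw [adj _ _ (hG.mul (hl.bm_log w)) hH]
      congr 1
      funext y
      rw [eNb]
      ring
    rw [h1]
    refine EY_mono_bm ((SB.bm hNa.sb).mul (hl'.bm_log w))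
      ((hΛ.bm _ (hG.mul (hl.bm_log w))).mul hH) fun y => ?_
    have h2 := mul_le_mul_of_nonneg_right (tch_jensen hΛ hG hG0 hl w y) (hH0 y)
    rw [eNa]
    refine (le_of_eq ?_).trans h2
    ring
  · intro ι _ φa φb hφa eφ
    have hfi : ∀ w i, (EY μ a fun y => Na y * φa i y * tch Λ G l w y)
        = EY μ b fun y => Nb y * φb i y * l w y := by
      intro w i
      rw [key _ (hφa i) w]
      congr 1
      funext y
      rw [eφ, eNb]
      ring
    unfold Co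
    congr 1
    funext w
    rw [hms w]
    congr 1
    exact Finset.sum_congr rfl fun i _ => by rw [hfi w i]

theorem transport [IsProbabilityMeasure γ] (hg : Out γ g) {μ : Measure (Fin n → ℝ)}
    [IsProbabilityMeasure μ] {a b : ℝ}
    {Λ Λs : ((Fin n → ℝ) → ℝ) → (Fin n → ℝ) → ℝ} (hΛ : MO γ g Λ)
    (adj : ∀ f Φ : (Fin n → ℝ) → ℝ, BM f → BM Φ →
      EY μ a (fun y => Λ f y * Φ y) = EY μ b (fun y => f y * Λs Φ y))
    {G H Na Nb : (Fin n → ℝ) → ℝ} (hG : BM G) (hG0 : ∃ ε, 0 < ε ∧ ∀ y, ε ≤ G y) (hH : BM H)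
    (hH0 : ∀ y, 0 ≤ H y) (hNa : Pos Na) (hNb : Pos Nb) (eNa : ∀ y, Na y = H y * Λ G y)
    (eNb : ∀ y, Nb y = G y * Λs H y) {ι : Type} [Fintype ι] {φa φb : ι → (Fin n → ℝ) → ℝ}
    (hφa : ∀ i, BM (φa i)) (eφ : ∀ i y, Λs (fun y => H y * φa i y) y = Λs H y * φb i y)
    {x X : ℝ} (hp : Pred γ g μ a Na φa x X) : Pred γ g μ b Nb φb x X := by
  intro l hl hI
  obtain ⟨hl', -, hInf, hCo⟩ := transport_ch hg hΛ adj hG hG0 hH hH0 hNa hNb eNa eNb hl
  have h := hp _ hl' (hInf.trans hI)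
  rwa [hCo hφa eφ] at h

/-- module T, arbitrary output space -/
theorem thT [IsProbabilityMeasure γ] (hg : Out γ g) {μ : Measure (Fin n → ℝ)}
    [IsProbabilityMeasure μ] {R : ℝ} (h : CSupp μ R) {N : (Fin n → ℝ) → ℝ} {s r x X : ℝ}
    (hN : Pos N) (hs : 0 < s) (hsr : s ≤ r) :
    (Pred γ g μ r N (sN N) x X → Pred γ g μ s (PH (r - s) N) (sN (PH (r - s) N)) x X) ∧
    (Pred γ g μ s N (sN N) x X → Pred γ g μ r (UL μ s r N) (us μ s r N) x X) ∧
    (∀ {ι : Type} [Fintype ι] (φ : ι → (Fin n → ℝ) → ℝ), (∀ i, SB (φ i)) →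
      Pred γ g μ r (UL μ s r N) φ x X → Pred γ g μ s N (fun i => PH (r - s) (φ i)) x X) ∧
    (∀ {ι : Type} [Fintype ι] (φ : ι → (Fin n → ℝ) → ℝ), (∀ i, SB (φ i)) →
      Pred γ g μ s (PH (r - s) N) φ x X → Pred γ g μ r N (fun i => UL μ s r (φ i)) x X) := by
  have adjU : ∀ f Φ : (Fin n → ℝ) → ℝ, BM f → BM Φ →
      EY μ r (fun y => UL μ s r f y * Φ y) = EY μ s (fun y => f y * PH (r - s) Φ y) :=
    ((thK n μ R h).1 s r hs hsr).2.2.2.2.2
  have adjP : ∀ f Φ : (Fin n → ℝ) → ℝ, BM f → BM Φ →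
      EY μ s (fun y => PH (r - s) f y * Φ y) = EY μ r (fun y => f y * UL μ s r Φ y) := by
    intro f Φ hf hΦ
    have h1 := adjU Φ f hΦ hf
    simp_rw [mul_comm (Φ _), mul_comm _ (f _)] at h1
    exact h1.symm
  have mU := MO_UL hg h hs hsr
  have mP := MO_PH (n := n) hg (r - s)
  have hone : BM (fun _ : Fin n → ℝ => (1 : ℝ)) := BM.const 1
  have hone' : ∃ ε : ℝ, 0 < ε ∧ ∀ y : Fin n → ℝ, ε ≤ (fun _ => (1 : ℝ)) y :=
    ⟨1, one_pos, fun _ => le_rfl⟩
  obtain ⟨hUN, hsb, -⟩ := ((thR' n μ R h).2.2 s r hs hsr).2 N hN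
  have hPN := PH_pos hN (r - s)
  have hNb := SB.bm hN.sb
  have hN0 : ∀ y, 0 ≤ N y := fun y => (hN.pos y).le
  have epd : ∀ i, (fun y => N y * sN N i y) = pd N i := fun i => by
    funext y
    unfold sN
    rw [mul_div_cancel₀ _ (hN.pos y).ne']
  refine ⟨fun hp => ?_, fun hp => ?_, fun φ hφ hp => ?_, fun φ hφ hp => ?_⟩
  · refine transport hg mU adjU hone hone' hNb hN0 hN hPN (fun y => by rw [mU.one, mul_one])
      (fun y => by rw [one_mul]) (fun i => SB.bm (hsb i).1) (fun i y => ?_) hp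
    rw [epd i, ← pd_PH hN.sb]
    unfold sN
    rw [mul_div_cancel₀ _ (hPN.pos y).ne']
  · refine transport hg mP adjP hone hone' hNb hN0 hN hUN (fun y => by rw [mP.one, mul_one])
      (fun y => by rw [one_mul]) (fun i => SB.bm (hsb i).1) (fun i y => ?_) hp
    rw [epd i]
    unfold us
    rw [mul_div_cancel₀ _ (hUN.pos y).ne']
  · refine transport hg mU adjU hNb hN.lb hone (fun _ => zero_le_one) hUN hN
      (fun y => by rw [one_mul]) (fun y => by rw [mP.one, mul_one]) (fun i => SB.bm (hφ i))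
      (fun i y => ?_) hp
    simp only [one_mul]
    rw [mP.one, one_mul]
  · refine transport hg mP adjP hNb hN.lb hone (fun _ => zero_le_one) hPN hN
      (fun y => by rw [one_mul]) (fun y => by rw [mU.one, mul_one]) (fun i => SB.bm (hφ i))
      (fun i y => ?_) hp
    simp only [one_mul]
    rw [mU.one, one_mul]

end Vale.Agent.P245.H468
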