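import Vale.Agent.P245.H468.UP
import Vale.Agent.P245.H229.LUPd
import Vale.Agent.P245.H991.Spec

/-! # P245 (helper468): Lemma U' as the property `LUp` (line U, `g0 = 0`) -/

open MeasureTheory Real Set Filter Topology

namespace Vale.Agent.P245.H468

open LS E1 H485 Vale.Agent.P254.SP620

variable {n m : ℕ}

/-- optimisation over the free parameter -/
theorem opt_sq {J a b : ℝ} (ha : 0 ≤ a) (hb : 0 ≤ b)
    (h : ∀ d : ℝ, 0 < d → J ≤ (1 + d) * a + (1 + 1 / d) * b) : J ≤ (√a + √b) ^ 2 := by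
  have key : ∀ e : ℝ, 0 < e → J ≤ (√a + √b) ^ 2 + e * (√a + √b) := by
    intro e he
    have h1 : 0 < √a + e := by positivity
    have h2 : 0 < √b + e := by positivity
    have h3 := h ((√b + e) / (√a + e)) (by positivity)
    have e1 : √a * √a = a := mul_self_sqrt ha
    have e2 : √b * √b = b := mul_self_sqrt hb
    have h4 : (√b + e) / (√a + e) * a ≤ (√b + e) * √a := by
      rw [div_mul_eq_mul_div, div_le_iff₀ h1]
      have : (√b + e) * √a * (√a + e) = (√b + e) * (√a * √a) + (√b + e) * √a * e := by ring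
      rw [this, e1]
      have : 0 ≤ (√b + e) * √a * e := by positivity
      linarith only [this]
    have h5 : 1 / ((√b + e) / (√a + e)) * b ≤ (√a + e) * √b := by
      rw [one_div, inv_div, div_mul_eq_mul_div, div_le_iff₀ h2]
      have : (√a + e) * √b * (√b + e) = (√a + e) * (√b * √b) + (√a + e) * √b * e := by ring
      rw [this, e2]
      have : 0 ≤ (√a + e) * √b * e := by positivity
      linarith only [this]
    have e3 : (√a + √b) ^ 2 + e * (√a + √b)
        = √a * √a + √b * √b + (√b + e) * √a + (√a + e) * √b := by ring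
    rw [e3, e1, e2]
    have e4 : (1 + (√b + e) / (√a + e)) * a + (1 + 1 / ((√b + e) / (√a + e))) * b
        = a + b + (√b + e) / (√a + e) * a + 1 / ((√b + e) / (√a + e)) * b := by ring
    rw [e4] at h3
    linarith only [h3, h4, h5]
  set x := √a + √b with hx
  have hx0 : 0 ≤ x := by positivity
  refine le_of_forall_pos_le_add fun e he => ?_
  have h1 := key (e / (x + 1)) (by positivity)
  have h2 : e / (x + 1) * x ≤ e := by
    rw [div_mul_eq_mul_div, div_le_iff₀ (by positivity)]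
    have : e * x ≤ e * (x + 1) := mul_le_mul_of_nonneg_left (by linarith) he.le
    exact this
  linarith only [h1, h2]

theorem sqrt_add_le' {a b : ℝ} (ha : 0 ≤ a) (hb : 0 ≤ b) : √(a + b) ≤ √a + √b := by
  rw [sqrt_le_left (by positivity)]
  have e1 : √a * √a = a := mul_self_sqrt ha
  have e2 : √b * √b = b := mul_self_sqrt hb
  have e3 : (√a + √b) ^ 2 = √a * √a + √b * √b + 2 * (√a * √b) := by ring
  rw [e3, e1, e2]
  have : 0 ≤ √a * √b := by positivity
  linarith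

/-- the flat term is nonnegative -/
theorem mFl_nonneg {ρ0 : (Fin n → ℝ) → ℝ} {R r : ℝ} {N : (Fin n → ℝ) → ℝ} (hLC : LCd ρ0)
    (hP : IsProbabilityMeasure (mu ρ0)) (h : CSupp (mu ρ0) R) (hr : 0 < r) (hN : Pos N)
    {A : (Fin n → ℝ) → Matrix (Fin n) (Fin n) ℝ} (hA : SBm A) : 0 ≤ mFl (mu ρ0) r N A := by
  have hPVsb : ∀ i j, SB (PV (mu ρ0) r i j) := fun i j => ((thR' n (mu ρ0) R h).2.1 r i j hr).1
  have e1 : mFl (mu ρ0) r N A = ∑ k, BI (mu ρ0) r N (fun i y => A y i k)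
      (fun i y => A y i k) := by
    unfold mFl BI
    rw [← EY_sum (mu ρ0) r Finset.univ fun k _ => hN.sb.mul (SB.sum _ fun i _ =>
      SB.sum _ fun j _ => ((hPVsb i j).mul (hA i k)).mul (hA j k))]
    congr 1
    funext y
    rw [Finset.mul_sum]
  rw [e1]
  exact Finset.sum_nonneg fun k _ => (thP n ρ0 R hLC hP h r N (fun i y => A y i k)
    (fun i y => A y i k) hr hN (fun i => hA i k) (fun i => hA i k)).1

/-- **Lemma U'** in the form `LUp`, `g0 = 0` -/
theorem luU {ρ0 : (Fin n → ℝ) → ℝ} {R b s κ D : ℝ} {N : (Fin n → ℝ) → ℝ} (hLC : LCd ρ0)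
    (hP : IsProbabilityMeasure (mu ρ0)) (h : CSupp (mu ρ0) R) (hb : 0 < b) (hbs : b < s)
    (hN : Pos N) (h1 : EY (mu ρ0) b N = 1) (hκ : 0 ≤ κ) (hD : DBL (mu ρ0) b κ D) {be : ℝ}
    (hbe : κ * FI (mu ρ0) b N + D - HE (mu ρ0) b N ≤ be) :
    H991.LUp (mu ρ0) κ s (s - b) be 0 (UL (mu ρ0) b s N) := by
  have hN' := UL_pos' h hb hbs.le hN
  have hs : 0 < s := hb.trans hbs
  have ht : 0 < s - b := sub_pos.2 hbs
  intro m φ Q c hφ hQ hsym hop hc
  have a1 := up23 h hb hbs.le hN h1 hφ hc hD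
  set J := JF (gsn m) (mu ρ0) b N (fun w => PH (s - b) (RL c φ w)) with hJ
  set N' := UL (mu ρ0) b s N with hN'd
  have hQ' : ∀ e f, SB (fun y => Q y e f) := hQ
  have eA : (EY (mu ρ0) s fun y => N' y * H229.A2 φ (fun e f y => Q y e f) y)
      = H991.fRE (mu ρ0) s N' φ Q := rfl
  have eq : (EY (mu ρ0) s fun y => N' y * H229.q2 (fun e f y => Q y e f) y)
      = mSq (mu ρ0) s N' Q := rfl
  have eB : (EY (mu ρ0) s fun y => N' y * H229.B2 (fun e f y => Q y e f) y)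
      = mDE (mu ρ0) s N' Q := by
    unfold mDE H229.B2
    congr 1
    funext y
    congr 1
    have : ∀ e : Fin n, ∑ f, ∑ g, pd (fun z => Q z e f) g y ^ 2
        = ∑ g, ∑ f, pd (fun z => Q z e f) g y ^ 2 := fun e => Finset.sum_comm
    simp_rw [this]
    exact Finset.sum_comm
  have hA0 : 0 ≤ H991.fRE (mu ρ0) s N' φ Q := LS.EY_nonneg _ _ fun y =>
    mul_nonneg (hN'.pos y).le (Finset.sum_nonneg fun i _ => Finset.sum_nonneg fun j _ => sq_nonneg _)
  have hq0 : 0 ≤ mSq (mu ρ0) s N' Q := LS.EY_nonneg _ _ fun y =>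
    mul_nonneg (hN'.pos y).le (Finset.sum_nonneg fun i _ => Finset.sum_nonneg fun j _ => sq_nonneg _)
  have hB0 : 0 ≤ mDE (mu ρ0) s N' Q := LS.EY_nonneg _ _ fun y =>
    mul_nonneg (hN'.pos y).le (Finset.sum_nonneg fun i _ => Finset.sum_nonneg fun j _ =>
      Finset.sum_nonneg fun k _ => sq_nonneg _)
  have hF0 : 0 ≤ mFl (mu ρ0) s N' Q := mFl_nonneg hLC hP h hs hN' hQ
  have hI0 : 0 ≤ FI (mu ρ0) s N' := LS.EY_nonneg _ _ fun y =>
    div_nonneg (Finset.sum_nonneg fun i _ => sq_nonneg _) (hN'.pos y).le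
  have b1 : J ≤ (√(c * H991.fRE (mu ρ0) s N' φ Q)
      + √(mSq (mu ρ0) s N' Q / (s - b) + mDE (mu ρ0) s N' Q)) ^ 2 := by
    refine opt_sq (by positivity) (by positivity) fun d hd => ?_
    have := H229.JF_up (Q := fun e f y => Q y e f) h hb hbs hN hφ hQ' hc hd
    rw [eA, eq, eB] at this
    exact this
  have b2 : √(mSq (mu ρ0) s N' Q / (s - b) + mDE (mu ρ0) s N' Q)
      ≤ √(mSq (mu ρ0) s N' Q / (s - b)) + √(mDE (mu ρ0) s N' Q + mFl (mu ρ0) s N' Q
        + 0 * √(mSq (mu ρ0) s N' Q)) := by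
    refine (sqrt_add_le' (by positivity) hB0).trans ?_
    gcongr
    linarith only [hF0]
  have b3 : J ≤ (√(c * H991.fRE (mu ρ0) s N' φ Q) + √(mSq (mu ρ0) s N' Q / (s - b))
          + √(mDE (mu ρ0) s N' Q + mFl (mu ρ0) s N' Q + 0 * √(mSq (mu ρ0) s N' Q))
          + √(FI (mu ρ0) s N')
          + √((s - b) / s * (FI (mu ρ0) s N' + c * DE (mu ρ0) s N' φ))) ^ 2 := by
    refine b1.trans (pow_le_pow_left₀ (by positivity) ?_ 2)
    have c1 := sqrt_nonneg (FI (mu ρ0) s N')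
    have c2 := sqrt_nonneg ((s - b) / s * (FI (mu ρ0) s N' + c * DE (mu ρ0) s N' φ))
    linarith only [b2, c1, c2]
  have b4 := mul_le_mul_of_nonneg_left b3 hκ
  have b5 : 0 ≤ (s - b) / 2 * FI (mu ρ0) s N' := by positivity
  linarith only [a1, b4, b5, hbe]

/-- the same with step `ep * s` -/
theorem luU_ep {ρ0 : (Fin n → ℝ) → ℝ} {R ep s κ D : ℝ} {N : (Fin n → ℝ) → ℝ} (hLC : LCd ρ0)
    (hP : IsProbabilityMeasure (mu ρ0)) (h : CSupp (mu ρ0) R) (hs : 0 < s) (he : 0 < ep)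
    (he1 : ep < 1) (hN : Pos N) (h1 : EY (mu ρ0) ((1 - ep) * s) N = 1) (hκ : 0 ≤ κ)
    (hD : DBL (mu ρ0) ((1 - ep) * s) κ D) {be : ℝ}
    (hbe : κ * FI (mu ρ0) ((1 - ep) * s) N + D - HE (mu ρ0) ((1 - ep) * s) N ≤ be) :
    H991.LUp (mu ρ0) κ s (ep * s) be 0 (UL (mu ρ0) ((1 - ep) * s) s N) := by
  have hb : 0 < (1 - ep) * s := mul_pos (by linarith) hs
  have hbs : (1 - ep) * s < s := by
    have := mul_pos he hs
    linarith
  have e : ep * s = s - (1 - ep) * s := by ring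
  rw [e]
  exact luU hLC hP h hb hbs hN h1 hκ hD hbe

end Vale.Agent.P245.H468
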